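import Mathlib

/-! Calculus of a norm that is `C^1` away from the origin, and the rigidity lemma: a common chord of
three spheres at points with independent normals vanishes. -/

namespace Vale.Agent.Lib.P084.Dim3

open scoped ContDiff Topology
open Set Filter Metric

variable {V : Type*} [NormedAddCommGroup V] [NormedSpace ℝ V]

/-- The norm of `V` is `C^1` away from the origin. -/
def C1Norm (V : Type*) [NormedAddCommGroup V] [NormedSpace ℝ V] : Prop :=
  ∀ v : V, v ≠ 0 → ContDiffAt ℝ 1 (fun z : V => ‖z‖) v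

/-- The derivative of the norm. -/
noncomputable def ell (v : V) : V →L[ℝ] ℝ := fderiv ℝ (fun z : V => ‖z‖) v

section

variable (hV : C1Norm V)
include hV

lemma hasFDerivAt_ell {x : V} (hx : x ≠ 0) : HasFDerivAt (fun z : V => ‖z‖) (ell x) x :=
  ((hV x hx).differentiableAt (by norm_num)).hasFDerivAt

lemma hasStrictFDerivAt_ell {x : V} (hx : x ≠ 0) :
    HasStrictFDerivAt (fun z : V => ‖z‖) (ell x) x :=
  (hV x hx).hasStrictFDerivAt (by norm_num)

lemma continuousAt_ell {x : V} (hx : x ≠ 0) : ContinuousAt (ell : V → V →L[ℝ] ℝ) x :=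
  ((hV x hx).fderiv_right (m := 0) (by norm_num)).continuousAt

lemma ell_smul {x : V} (hx : x ≠ 0) {t : ℝ} (ht : 0 < t) : ell (t • x) = ell x := by
  have htx : t • x ≠ 0 := smul_ne_zero ht.ne' hx
  have h1 : HasFDerivAt (fun z : V => ‖t • z‖)
      ((ell (t • x)).comp (t • ContinuousLinearMap.id ℝ V)) x := by
    have := (hasFDerivAt_ell hV htx).comp x ((hasFDerivAt_id x).const_smul t)
    simpa [Function.comp_def] using this
  have h2 : HasFDerivAt (fun z : V => ‖t • z‖) (t • ell x) x := by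
    have := (hasFDerivAt_ell hV hx).const_mul t
    refine this.congr_of_eventuallyEq (Eventually.of_forall fun z => ?_)
    simp [norm_smul, abs_of_pos ht]
  have h3 := h1.unique h2
  ext v
  have := congrArg (fun L : V →L[ℝ] ℝ => L v) h3
  simp at this
  have h4 : t * ell (t • x) v = t * ell x v := by
    simpa [map_smul] using this
  exact mul_left_cancel₀ ht.ne' h4

lemma ell_neg {x : V} (hx : x ≠ 0) : ell (-x) = - ell x := by
  have hnx : -x ≠ 0 := neg_ne_zero.2 hx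
  have h1 : HasFDerivAt (fun z : V => ‖-z‖)
      ((ell (-x)).comp (-ContinuousLinearMap.id ℝ V)) x := by
    have := (hasFDerivAt_ell hV hnx).comp x ((hasFDerivAt_id x).neg)
    simpa [Function.comp_def] using this
  have h2 : HasFDerivAt (fun z : V => ‖-z‖) (ell x) x := by
    refine (hasFDerivAt_ell hV hx).congr_of_eventuallyEq (Eventually.of_forall fun z => ?_)
    simp
  have h3 := h1.unique h2
  ext v
  have := congrArg (fun L : V →L[ℝ] ℝ => L v) h3
  simp at this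
  simp [← this]

lemma ell_self {x : V} (hx : x ≠ 0) : ell x x = ‖x‖ := by
  have h1 : HasDerivAt (fun t : ℝ => ‖t • x‖) (ell x x) 1 := by
    have hl : HasDerivAt (fun t : ℝ => t • x) x 1 := by
      simpa using (hasDerivAt_id (1 : ℝ)).smul_const x
    have h := (hasFDerivAt_ell hV (x := (1 : ℝ) • x) (by simpa using hx)).comp_hasDerivAt (1 : ℝ) hl
    simpa [Function.comp_def] using h
  have h2 : HasDerivAt (fun t : ℝ => ‖t • x‖) ‖x‖ 1 := by
    have h : HasDerivAt (fun t : ℝ => t * ‖x‖) ‖x‖ 1 := by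
      simpa using (hasDerivAt_id (1 : ℝ)).mul_const ‖x‖
    refine h.congr_of_eventuallyEq ?_
    filter_upwards [lt_mem_nhds (zero_lt_one)] with t ht
    simp [norm_smul, abs_of_pos ht]
  exact h1.unique h2

lemma hasDerivAt_norm_line {p v : V} {t : ℝ} (h : p + t • v ≠ 0) :
    HasDerivAt (fun s : ℝ => ‖p + s • v‖) (ell (p + t • v) v) t := by
  have hl : HasDerivAt (fun s : ℝ => p + s • v) v t := by
    simpa using ((hasDerivAt_id t).smul_const v).const_add p
  have h' := (hasFDerivAt_ell hV h).comp_hasDerivAt t hl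
  simpa [Function.comp_def] using h'

lemma ell_le {x : V} (hx : x ≠ 0) (z : V) : ell x z ≤ ‖z‖ := by
  have h1 : HasDerivAt (fun t : ℝ => ‖x + t • z‖) (ell x z) 0 := by
    simpa using hasDerivAt_norm_line hV (p := x) (v := z) (t := 0) (by simpa using hx)
  have h2 := h1.tendsto_slope_zero_right
  refine le_of_tendsto h2 ?_
  filter_upwards [self_mem_nhdsWithin] with t ht
  have ht' : (0 : ℝ) < t := ht
  have h3 : ‖x + t • z‖ ≤ ‖x‖ + t * ‖z‖ := by
    calc ‖x + t • z‖ ≤ ‖x‖ + ‖t • z‖ := norm_add_le _ _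
      _ = ‖x‖ + t * ‖z‖ := by simp [norm_smul, abs_of_pos ht']
  simp only [zero_add, zero_smul, add_zero, smul_eq_mul]
  rw [inv_mul_le_iff₀ ht']
  linarith

lemma abs_ell_le {x : V} (hx : x ≠ 0) (z : V) : |ell x z| ≤ ‖z‖ := by
  rw [abs_le]
  constructor
  · have := ell_le hV hx (-z)
    rw [map_neg, norm_neg] at this
    linarith
  · exact ell_le hV hx z

/-- Strict convexity: a unit vector on which `ell x` takes the value `1` equals the direction of
`x`. -/
lemma eq_of_ell_eq_one [StrictConvexSpace ℝ V] {x z : V} (hx : ‖x‖ = 1) (hz : ‖z‖ = 1)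
    (h : ell x z = 1) : z = x := by
  have hx0 : x ≠ 0 := by
    rintro rfl
    simp at hx
  have h1 : ell x (x + z) = 2 := by
    rw [map_add, ell_self hV hx0, hx, h]; norm_num
  have h2 := ell_le hV hx0 (x + z)
  have h3 : ‖x + z‖ ≤ 2 := by
    have := norm_add_le x z
    rw [hx, hz] at this
    linarith
  have h4 : ‖x + z‖ = ‖x‖ + ‖z‖ := by rw [hx, hz]; linarith
  have h5 : x = z := eq_of_norm_eq_of_norm_add_eq (by rw [hx, hz]) h4
  exact h5.symm

/-- `ell` of a chord direction is small near a point of the sphere. -/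
lemma eventually_abs_ell_sub_le {u : V} (hu : u ≠ 0) {ε : ℝ} (hε : 0 < ε) :
    ∃ η > 0, ∀ A B : V, ‖A - u‖ < η → ‖B - u‖ < η →
      |‖A‖ - ‖B‖ - ell u (A - B)| ≤ ε * ‖A - B‖ := by
  have h := (hasStrictFDerivAt_ell hV hu).isLittleO.def hε
  obtain ⟨η, hη, hball⟩ := Metric.eventually_nhds_iff.1 h
  refine ⟨η, hη, fun A B hA hB => ?_⟩
  have hd : dist (A, B) (u, u) < η := by
    rw [Prod.dist_eq, dist_eq_norm, dist_eq_norm]
    exact max_lt hA hB
  have := hball hd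
  simpa [Real.norm_eq_abs] using this

/-- The rigidity lemma. -/
theorem rigid [FiniteDimensional ℝ V] {u₀ u₁ u₂ : V} (h0 : u₀ ≠ 0) (h1 : u₁ ≠ 0) (h2 : u₂ ≠ 0)
    (hind : ∀ a, ell u₀ a = 0 → ell u₁ a = 0 → ell u₂ a = 0 → a = 0) :
    ∃ η > 0, ∀ A₀ B₀ A₁ B₁ A₂ B₂ : V, ‖A₀ - u₀‖ < η → ‖B₀ - u₀‖ < η → ‖A₁ - u₁‖ < η →
      ‖B₁ - u₁‖ < η → ‖A₂ - u₂‖ < η → ‖B₂ - u₂‖ < η → ‖A₀‖ = ‖B₀‖ → ‖A₁‖ = ‖B₁‖ → ‖A₂‖ = ‖B₂‖ →
      A₀ - B₀ = A₁ - B₁ → A₀ - B₀ = A₂ - B₂ → A₀ = B₀ := by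
  let Λ : V →ₗ[ℝ] ℝ × ℝ × ℝ :=
    (ell u₀ : V →ₗ[ℝ] ℝ).prod ((ell u₁ : V →ₗ[ℝ] ℝ).prod (ell u₂ : V →ₗ[ℝ] ℝ))
  have hΛ : Function.Injective Λ := by
    rw [← LinearMap.ker_eq_bot, LinearMap.ker_eq_bot']
    intro a ha
    have h3 : Λ a = (ell u₀ a, ell u₁ a, ell u₂ a) := rfl
    rw [h3] at ha
    simp only [Prod.mk_eq_zero] at ha
    exact hind a ha.1 ha.2.1 ha.2.2
  obtain ⟨K, hK, hanti⟩ := LinearMap.injective_iff_antilipschitz Λ |>.1 hΛ
  have hK0 : (0 : ℝ) < K := by exact_mod_cast hK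
  have hbound : ∀ a : V, ‖a‖ ≤ K * max |ell u₀ a| (max |ell u₁ a| |ell u₂ a|) := by
    intro a
    have := hanti.le_mul_dist a 0
    rw [dist_zero_right, map_zero, dist_zero_right] at this
    have h3 : ‖Λ a‖ = max |ell u₀ a| (max |ell u₁ a| |ell u₂ a|) := rfl
    rwa [h3] at this
  set ε : ℝ := (2 * K)⁻¹ with hε
  have hε0 : 0 < ε := by positivity
  obtain ⟨η₀, hη₀, h0'⟩ := eventually_abs_ell_sub_le hV h0 hε0
  obtain ⟨η₁, hη₁, h1'⟩ := eventually_abs_ell_sub_le hV h1 hε0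
  obtain ⟨η₂, hη₂, h2'⟩ := eventually_abs_ell_sub_le hV h2 hε0
  refine ⟨min η₀ (min η₁ η₂), lt_min hη₀ (lt_min hη₁ hη₂), ?_⟩
  intro A₀ B₀ A₁ B₁ A₂ B₂ a0 b0 a1 b1 a2 b2 n0 n1 n2 e1 e2
  have m1 := min_le_left η₀ (min η₁ η₂)
  have m2 := (min_le_right η₀ (min η₁ η₂)).trans (min_le_left η₁ η₂)
  have m3 := (min_le_right η₀ (min η₁ η₂)).trans (min_le_right η₁ η₂)
  have r0 := h0' A₀ B₀ (by linarith) (by linarith)
  have r1 := h1' A₁ B₁ (by linarith) (by linarith)
  have r2 := h2' A₂ B₂ (by linarith) (by linarith)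
  rw [n0, sub_self, zero_sub, abs_neg] at r0
  rw [n1, sub_self, zero_sub, abs_neg, ← e1] at r1
  rw [n2, sub_self, zero_sub, abs_neg, ← e2] at r2
  set a := A₀ - B₀ with ha
  have hb := hbound a
  have hmax : max |ell u₀ a| (max |ell u₁ a| |ell u₂ a|) ≤ ε * ‖a‖ :=
    max_le r0 (max_le r1 r2)
  have h3 : K * max |ell u₀ a| (max |ell u₁ a| |ell u₂ a|) ≤ K * (ε * ‖a‖) :=
    mul_le_mul_of_nonneg_left hmax hK0.le
  have h4 : (K : ℝ) * (ε * ‖a‖) = ‖a‖ / 2 := by
    rw [hε]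
    field_simp
  have h5 : ‖a‖ ≤ 0 := by
    have := norm_nonneg a
    linarith
  have h6 : a = 0 := norm_le_zero_iff.1 h5
  exact sub_eq_zero.1 h6

/-- Chord directions at a point of a sphere are tangent. -/
lemma chord_tangent {p : V} (hp : p ≠ 0) {a : ℕ → V} {b : ℕ → V} (ha : Tendsto a atTop (𝓝 p))
    (hb : Tendsto b atTop (𝓝 p)) (hn : ∀ n, ‖a n‖ = ‖b n‖) {d : V}
    (hd : Tendsto (fun n => ‖a n - b n‖⁻¹ • (a n - b n)) atTop (𝓝 d)) (hne : ∀ n, a n ≠ b n) :
    ell p d = 0 := by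
  have key : ∀ ε > 0, |ell p d| ≤ ε := by
    intro ε hε
    obtain ⟨η, hη, h⟩ := eventually_abs_ell_sub_le hV hp hε
    have h1 : ∀ᶠ n in atTop, ‖a n - p‖ < η := by
      have := (tendsto_iff_norm_sub_tendsto_zero.1 ha).eventually (gt_mem_nhds hη)
      exact this
    have h2 : ∀ᶠ n in atTop, ‖b n - p‖ < η := by
      have := (tendsto_iff_norm_sub_tendsto_zero.1 hb).eventually (gt_mem_nhds hη)
      exact this
    have hc : Tendsto (fun n => |ell p (‖a n - b n‖⁻¹ • (a n - b n))|) atTop (𝓝 |ell p d|) :=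
      ((ell p).continuous.tendsto d |>.comp hd).abs
    refine le_of_tendsto hc ?_
    filter_upwards [h1, h2] with n h3 h4
    have h5 := h _ _ h3 h4
    rw [hn n, sub_self, zero_sub, abs_neg] at h5
    have hpos : 0 < ‖a n - b n‖ := norm_pos_iff.2 (sub_ne_zero.2 (hne n))
    rw [map_smul, smul_eq_mul, abs_mul, abs_inv, abs_of_pos hpos, inv_mul_le_iff₀ hpos]
    linarith
  have h0 : |ell p d| ≤ 0 := le_of_forall_pos_le_add fun ε hε => by
    simpa using key ε hε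
  exact abs_nonpos_iff.1 h0

end

end Vale.Agent.Lib.P084.Dim3
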