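import Vale.Agent.Lib.P084.Dim3.Calc
import Vale.Agent.Lib.P084.Dim4.AddEq
import Vale.Agent.Lib.P084.Dim4.Core

/-! Lower semicontinuity of `w ↦ Ew w`, and the explicit homeomorphism of `Ew w` with a sphere. -/

set_option linter.unusedSectionVars false

namespace Vale.Agent.Lib.P084.Dim3

open scoped Topology
open Set Filter Metric Vale.Agent.Lib.P084.Dim4

variable {X : Type*} [NormedAddCommGroup X] [NormedSpace ℝ X]

lemma Proj.exists_theta' {E' : Type*} [NormedAddCommGroup E'] [InnerProductSpace ℝ E']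
    [FiniteDimensional ℝ E'] [FiniteDimensional ℝ X] [StrictConvexSpace ℝ X] {w : X}
    {π : X →L[ℝ] E'} (h : Proj w π) :
    ∃ Θ : Ew w ≃ₜ sphere (0 : E') 1, ∀ z : Ew w, (Θ z : E') = ‖π (z : X)‖⁻¹ • π (z : X) := by
  have hcomp : CompactSpace (Ew w) := isCompact_iff_compactSpace.1 (isCompact_Ew w)
  have hπ0 : ∀ z : Ew w, π (z : X) ≠ 0 := fun z => pi_ne_zero h.hw2 π h.ker z.2
  have hn : ∀ z : Ew w, ‖‖π (z : X)‖⁻¹ • π (z : X)‖ = 1 := fun z => by
    simpa using norm_smul_inv_norm (𝕜 := ℝ) (hπ0 z)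
  let θ : Ew w → sphere (0 : E') 1 :=
    fun z => ⟨‖π (z : X)‖⁻¹ • π (z : X), by simpa using hn z⟩
  have hθc : Continuous θ := Continuous.subtype_mk
    (((π.continuous.comp continuous_subtype_val).norm.inv₀
      (fun z => norm_ne_zero_iff.2 (hπ0 z))).smul (π.continuous.comp continuous_subtype_val)) _
  have hinj : Function.Injective θ := by
    intro a b hab
    have h1 : ‖π (a : X)‖⁻¹ • π (a : X) = ‖π (b : X)‖⁻¹ • π (b : X) := congrArg Subtype.val hab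
    have hna : 0 < ‖π (a : X)‖ := norm_pos_iff.2 (hπ0 a)
    have hnb : 0 < ‖π (b : X)‖ := norm_pos_iff.2 (hπ0 b)
    have hκ : π (b : X) = (‖π (b : X)‖ * ‖π (a : X)‖⁻¹) • π (a : X) := by
      rw [mul_smul, h1, smul_smul, mul_inv_cancel₀ hnb.ne', one_smul]
    have h2 := Ew_inj h.hw h.hw2 π h.ker a.2 b.2 (κ := ‖π (b : X)‖ * ‖π (a : X)‖⁻¹)
      (by positivity) hκ
    exact (Subtype.ext h2).symm
  have hsurj : Function.Surjective θ := by
    rintro ⟨t, ht⟩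
    have ht1 : ‖t‖ = 1 := by simpa using ht
    have ht0 : t ≠ 0 := by
      rintro rfl
      simp at ht1
    obtain ⟨x, hx, κ, hκ, hπx⟩ := Ew_exists h.hw h.hw2 π h.pi_w h.surj ht0
    refine ⟨⟨x, hx⟩, Subtype.ext ?_⟩
    show ‖π x‖⁻¹ • π x = t
    rw [hπx, norm_smul, ht1, Real.norm_of_nonneg hκ.le, mul_one, smul_smul,
      inv_mul_cancel₀ hκ.ne', one_smul]
  let e : Ew w ≃ sphere (0 : E') 1 := Equiv.ofBijective θ ⟨hinj, hsurj⟩
  let Θ : Ew w ≃ₜ sphere (0 : E') 1 := Continuous.homeoOfEquivCompactToT2 (f := e) hθc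
  exact ⟨Θ, fun z => rfl⟩

/-- Lower semicontinuity of `Ew`. -/
lemma Ew_lsc [FiniteDimensional ℝ X] [StrictConvexSpace ℝ X] {w₀ z₀ : X} (hw0 : w₀ ≠ 0)
    (hw2 : ‖w₀‖ < 2) (hdim : 2 ≤ Module.finrank ℝ X) (hz₀ : z₀ ∈ Ew w₀) {ε : ℝ} (hε : 0 < ε) :
    ∃ δ > 0, ∀ w : X, ‖w - w₀‖ < δ → ∃ z ∈ Ew w, ‖z - z₀‖ < ε := by
  obtain ⟨k, hk⟩ : ∃ k, Module.finrank ℝ X = k + 2 := ⟨Module.finrank ℝ X - 2, by omega⟩
  obtain ⟨π, hker, hsurj⟩ := exists_proj hw0 hk
  have hπz : π z₀ ≠ 0 := pi_ne_zero hw2 π hker hz₀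
  have hπw : π w₀ = 0 := (hker w₀).2 ⟨1, by simp⟩
  set n : ℝ := ‖w₀‖ with hn
  have hn0 : 0 < n := norm_pos_iff.2 hw0
  set u : X := n⁻¹ • w₀ with hu
  have hu1 : ‖u‖ = 1 := by
    rw [hu, norm_smul, norm_inv, norm_norm]
    exact inv_mul_cancel₀ hn0.ne'
  have hπu : π u = 0 := by rw [hu, map_smul, hπw, smul_zero]
  set v : ℝ → X := fun θ => Real.cos θ • u + Real.sin θ • z₀ with hv
  have hπv : ∀ θ, π (v θ) = Real.sin θ • π z₀ := by
    intro θ
    simp only [hv, map_add, map_smul, hπu, smul_zero, zero_add]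
  have hv0 : ∀ θ, v θ ≠ 0 := by
    intro θ h0
    have h1 := hπv θ
    rw [h0, map_zero] at h1
    have hsin : Real.sin θ = 0 := by
      rcases smul_eq_zero.1 h1.symm with h2 | h2
      · exact h2
      · exact absurd h2 hπz
    have hcos : Real.cos θ ≠ 0 := by
      intro h2
      have := Real.sin_sq_add_cos_sq θ
      rw [hsin, h2] at this
      norm_num at this
    have h3 : Real.cos θ • u = 0 := by
      have := h0
      simp only [hv, hsin, zero_smul, add_zero] at this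
      exact this
    rcases smul_eq_zero.1 h3 with h4 | h4
    · exact hcos h4
    · rw [h4, norm_zero] at hu1
      norm_num at hu1
  have hvc : Continuous v := by
    simp only [hv]
    fun_prop
  have hnv : ∀ θ, ‖v θ‖ ≠ 0 := fun θ => norm_ne_zero_iff.2 (hv0 θ)
  set y : ℝ → X := fun θ => ‖v θ‖⁻¹ • v θ with hy
  have hyc : Continuous y := by
    simp only [hy]
    exact (hvc.norm.inv₀ hnv).smul hvc
  have hy1 : ∀ θ, ‖y θ‖ = 1 := by
    intro θ
    simp only [hy]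
    rw [norm_smul, norm_inv, norm_norm, inv_mul_cancel₀ (hnv θ)]
  have hy0 : y 0 = u := by
    simp only [hy, hv, Real.cos_zero, Real.sin_zero, one_smul, zero_smul, add_zero, hu1, inv_one]
  have hyπ : y Real.pi = -u := by
    simp only [hy, hv, Real.cos_pi, Real.sin_pi, zero_smul, add_zero, neg_one_smul, norm_neg, hu1,
      inv_one, one_smul]
  have hyhalf : y (Real.pi / 2) = z₀ := by
    simp only [hy, hv, Real.cos_pi_div_two, Real.sin_pi_div_two, one_smul, zero_smul, zero_add,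
      hz₀.1, inv_one]
  have hψ0 : ‖y 0 - w₀‖ < 1 := by
    rw [hy0]
    have : u - w₀ = (n⁻¹ - 1) • w₀ := by rw [hu, sub_smul, one_smul]
    rw [this, norm_smul, Real.norm_eq_abs]
    have h1 : |n⁻¹ - 1| * ‖w₀‖ = |1 - n| := by
      rw [← hn]
      have : |n⁻¹ - 1| * n = |n⁻¹ - 1| * |n| := by rw [abs_of_pos hn0]
      rw [this, ← abs_mul, sub_mul, inv_mul_cancel₀ hn0.ne', one_mul]
    rw [h1, abs_lt]
    constructor <;> linarith
  have hψπ : 1 < ‖y Real.pi - w₀‖ := by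
    rw [hyπ]
    have : -u - w₀ = -((n⁻¹ + 1) • w₀) := by rw [hu, add_smul, one_smul]; abel
    rw [this, norm_neg, norm_smul, Real.norm_of_nonneg (by positivity), add_mul,
      inv_mul_cancel₀ hn0.ne']
    linarith
  have hψc : Continuous fun θ => ‖y θ - w₀‖ := (hyc.sub continuous_const).norm
  have hpi := Real.pi_pos
  -- uniqueness of the crossing
  have huniq : ∀ θ, 0 < θ → θ < Real.pi → ‖y θ - w₀‖ = 1 → θ = Real.pi / 2 := by
    intro θ h1 h2 h3
    have hsin : 0 < Real.sin θ := Real.sin_pos_of_pos_of_lt_pi h1 h2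
    have hmem : y θ ∈ Ew w₀ := ⟨hy1 θ, h3⟩
    have hvpos : 0 < ‖v θ‖ := norm_pos_iff.2 (hv0 θ)
    have hπy : π (y θ) = (‖v θ‖⁻¹ * Real.sin θ) • π z₀ := by
      simp only [hy]
      rw [map_smul, hπv, smul_smul]
    have heq := Ew_inj hw0 hw2 π hker hz₀ hmem (κ := ‖v θ‖⁻¹ * Real.sin θ) (by positivity) hπy
    have h4 : π (y θ) = π z₀ := by rw [heq]
    rw [hπy] at h4
    have h5 : (‖v θ‖⁻¹ * Real.sin θ - 1) • π z₀ = 0 := by
      rw [sub_smul, one_smul, h4, sub_self]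
    have h6 : ‖v θ‖⁻¹ * Real.sin θ = 1 := by
      rcases smul_eq_zero.1 h5 with h7 | h7
      · linarith
      · exact absurd h7 hπz
    have h7 : (‖v θ‖⁻¹ * Real.cos θ) • u = 0 := by
      have h8 : y θ = (‖v θ‖⁻¹ * Real.cos θ) • u + (‖v θ‖⁻¹ * Real.sin θ) • z₀ := by
        show ‖v θ‖⁻¹ • (Real.cos θ • u + Real.sin θ • z₀) = _
        rw [smul_add, mul_smul, mul_smul]
      rw [h6, one_smul, heq] at h8
      simpa using h8.symm
    have h8 : Real.cos θ = 0 := by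
      rcases smul_eq_zero.1 h7 with h9 | h9
      · rcases mul_eq_zero.1 h9 with h10 | h10
        · exact absurd h10 (inv_ne_zero hvpos.ne')
        · exact h10
      · rw [h9, norm_zero] at hu1
        norm_num at hu1
    have hcos : Real.cos θ = Real.cos (Real.pi / 2) := by rw [h8, Real.cos_pi_div_two]
    exact Real.injOn_cos ⟨h1.le, h2.le⟩ ⟨by positivity, by linarith⟩ hcos
  have hleft : ∀ θ, 0 ≤ θ → θ < Real.pi / 2 → ‖y θ - w₀‖ < 1 := by
    intro θ h1 h2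
    by_contra hcon
    have hge : 1 ≤ ‖y θ - w₀‖ := not_lt.1 hcon
    obtain ⟨θ', hθ', hθ'1⟩ := intermediate_value_Icc h1 hψc.continuousOn
      (show (1 : ℝ) ∈ Icc _ _ from ⟨hψ0.le, hge⟩)
    have h3 : θ' ≠ 0 := by
      rintro rfl
      simp only at hθ'1
      linarith
    have h4 := huniq θ' (lt_of_le_of_ne hθ'.1 h3.symm) (by linarith [hθ'.2]) hθ'1
    linarith [hθ'.2]
  have hright : ∀ θ, Real.pi / 2 < θ → θ ≤ Real.pi → 1 < ‖y θ - w₀‖ := by
    intro θ h1 h2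
    by_contra hcon
    have hle : ‖y θ - w₀‖ ≤ 1 := not_lt.1 hcon
    obtain ⟨θ', hθ', hθ'1⟩ := intermediate_value_Icc h2 hψc.continuousOn
      (show (1 : ℝ) ∈ Icc _ _ from ⟨hle, hψπ.le⟩)
    have h3 : θ' ≠ Real.pi := by
      rintro rfl
      simp only at hθ'1
      linarith
    have h4 := huniq θ' (by linarith [hθ'.1]) (lt_of_le_of_ne hθ'.2 h3) hθ'1
    linarith [hθ'.1]
  -- the small window
  obtain ⟨τ₀, hτ₀, hclose⟩ := Metric.continuousAt_iff.1 (hyc.continuousAt (x := Real.pi / 2)) ε hε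
  rw [hyhalf] at hclose
  set τ : ℝ := min (τ₀ / 2) (Real.pi / 2) with hτ
  have hτ0 : 0 < τ := lt_min (by linarith) (by linarith)
  have hτ1 : τ ≤ τ₀ / 2 := min_le_left _ _
  have hτ2 : τ ≤ Real.pi / 2 := min_le_right _ _
  have h1 := hleft (Real.pi / 2 - τ) (by linarith) (by linarith)
  have h2 := hright (Real.pi / 2 + τ) (by linarith) (by linarith)
  refine ⟨min (1 - ‖y (Real.pi / 2 - τ) - w₀‖) (‖y (Real.pi / 2 + τ) - w₀‖ - 1),
    lt_min (by linarith) (by linarith), fun w hw => ?_⟩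
  have hw1 : ‖w - w₀‖ < 1 - ‖y (Real.pi / 2 - τ) - w₀‖ := lt_of_lt_of_le hw (min_le_left _ _)
  have hw2' : ‖w - w₀‖ < ‖y (Real.pi / 2 + τ) - w₀‖ - 1 := lt_of_lt_of_le hw (min_le_right _ _)
  have hfc : Continuous fun θ => ‖y θ - w‖ := (hyc.sub continuous_const).norm
  have ha : ‖y (Real.pi / 2 - τ) - w‖ ≤ 1 := by
    have e : y (Real.pi / 2 - τ) - w = (y (Real.pi / 2 - τ) - w₀) - (w - w₀) := by abel
    rw [e]
    have := norm_sub_le (y (Real.pi / 2 - τ) - w₀) (w - w₀)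
    linarith
  have hb : 1 ≤ ‖y (Real.pi / 2 + τ) - w‖ := by
    have e : y (Real.pi / 2 + τ) - w₀ = (y (Real.pi / 2 + τ) - w) + (w - w₀) := by abel
    have h3 := norm_add_le (y (Real.pi / 2 + τ) - w) (w - w₀)
    rw [← e] at h3
    linarith
  obtain ⟨θ, hθ, hθ1⟩ := intermediate_value_Icc (by linarith : Real.pi / 2 - τ ≤ Real.pi / 2 + τ)
    hfc.continuousOn (show (1 : ℝ) ∈ Icc _ _ from ⟨ha, hb⟩)
  refine ⟨y θ, ⟨hy1 θ, hθ1⟩, ?_⟩
  have hd : dist θ (Real.pi / 2) < τ₀ := by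
    rw [Real.dist_eq, abs_lt]
    constructor <;> linarith [hθ.1, hθ.2]
  have := hclose hd
  rwa [dist_eq_norm] at this

end Vale.Agent.Lib.P084.Dim3
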