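import Vale.Agent.Lib.P084.Dim3.Parity

/-! The sum `g z + g (w - z)` is constant on `Ew w` for every `w` of norm less than two:
the set of good `w` is open by the rigidity and parity lemmas, and closed by lower semicontinuity. -/

set_option linter.unusedSectionVars false

namespace Vale.Agent.Lib.P084.Dim3

open scoped Topology
open Set Filter Metric Vale.Agent.Lib.P084.Dim4

variable {U V : Type*} [NormedAddCommGroup U] [NormedSpace ℝ U] [NormedAddCommGroup V]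
  [NormedSpace ℝ V]

/-- The sum attached to `w` is constant on `Ew w`. -/
def Good (g : U → V) (w : U) : Prop :=
  ∀ s ∈ Ew w, ∀ t ∈ Ew w, g s + g (w - s) = g t + g (w - t)

section

variable [FiniteDimensional ℝ U] [StrictConvexSpace ℝ U] [FiniteDimensional ℝ V]
  [StrictConvexSpace ℝ V] {g : U → V}

lemma exists_Proj3 (hdim : 3 ≤ Module.finrank ℝ U) {w : U} (hw : w ≠ 0) (hw2 : ‖w‖ < 2) :
    ∃ k : ℕ, 1 ≤ k ∧ ∃ π : U →L[ℝ] EuclideanSpace ℝ (Fin (k + 1)), Proj w π := by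
  obtain ⟨k, hk⟩ : ∃ k, Module.finrank ℝ U = k + 2 := ⟨Module.finrank ℝ U - 2, by omega⟩
  obtain ⟨π, h1, h2⟩ := exists_proj hw hk
  exact ⟨k, by omega, π, hw, hw2, h1, h2⟩

theorem connectedSpace_Ew3 (hdim : 3 ≤ Module.finrank ℝ U) {w : U} (hw : w ≠ 0) (hw2 : ‖w‖ < 2) :
    ConnectedSpace (Ew w) := by
  obtain ⟨k, hk, π, h⟩ := exists_Proj3 hdim hw hw2
  exact h.connectedSpace (by simp; omega)

theorem Ew_nonempty3 (hdim : 3 ≤ Module.finrank ℝ U) {w : U} (hw2 : ‖w‖ < 2) : (Ew w).Nonempty := by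
  by_cases hw : w = 0
  · have hnt : Nontrivial U := by
      apply Module.nontrivial_of_finrank_pos (R := ℝ)
      omega
    obtain ⟨a, ha⟩ := exists_ne (0 : U)
    refine ⟨‖a‖⁻¹ • a, ?_, ?_⟩
    · simpa using norm_smul_inv_norm (𝕜 := ℝ) ha
    · rw [hw, sub_zero]
      simpa using norm_smul_inv_norm (𝕜 := ℝ) ha
  · have hcs := connectedSpace_Ew3 hdim hw hw2
    obtain ⟨z⟩ := hcs.toNonempty
    exact ⟨z, z.2⟩

lemma Kf_norm (hg : SphereIso g) {w x : U} (hx : x ∈ Ew w) : ‖g x + g (w - x)‖ = ‖w‖ := by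
  have e : w - x = -(x - w) := by abel
  rw [e, hg.odd hx.2, ← sub_eq_add_neg, hg.dist_eq _ _ hx.1 hx.2]
  have e2 : x - (x - w) = w := by abel
  rw [e2]

lemma Kf_lip (hg : SphereIso g) {w w₀ z z₀ : U} (hz : z ∈ Ew w) (hz₀ : z₀ ∈ Ew w₀) :
    ‖(g z + g (w - z)) - (g z₀ + g (w₀ - z₀))‖ ≤ 2 * ‖z - z₀‖ + ‖w - w₀‖ := by
  have e : (g z + g (w - z)) - (g z₀ + g (w₀ - z₀)) = (g z - g z₀) + (g (w - z) - g (w₀ - z₀)) := by
    abel
  rw [e]
  have h1 := norm_add_le (g z - g z₀) (g (w - z) - g (w₀ - z₀))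
  rw [hg.dist_eq _ _ hz.1 hz₀.1, hg.dist_eq _ _ (Ew_rho hz).1 (Ew_rho hz₀).1] at h1
  have e2 : w - z - (w₀ - z₀) = (w - w₀) - (z - z₀) := by abel
  rw [e2] at h1
  have h2 := norm_sub_le (w - w₀) (z - z₀)
  linarith

/-- Local rigidity. -/
lemma local_rigid (hV : C1Norm V) (hg : SphereIso g) {w₀ z₀ y₀ : U} (hG : Good g w₀)
    (hw₀ : w₀ ≠ 0) (hz₀ : z₀ ∈ Ew w₀) (hy₀ : y₀ ∈ Ew w₀) (h1 : g z₀ ≠ g y₀)
    (h2 : g z₀ ≠ g (w₀ - y₀))
    (hind : ∀ a, ell (g z₀ + g (w₀ - z₀)) a = 0 → ell (g z₀ - g y₀) a = 0 →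
      ell (g z₀ - g (w₀ - y₀)) a = 0 → a = 0) :
    ∃ δ > 0, ∀ w z y : U, ‖w - w₀‖ < δ → ‖z - z₀‖ < δ → ‖y - y₀‖ < δ → z ∈ Ew w → y ∈ Ew w →
      g z + g (w - z) = g y + g (w - y) := by
  have hu0 : g z₀ + g (w₀ - z₀) ≠ 0 := by
    intro h0
    have := Kf_norm hg hz₀
    rw [h0, norm_zero] at this
    exact hw₀ (norm_eq_zero.1 this.symm)
  obtain ⟨η, hη, hr⟩ := rigid hV hu0 (sub_ne_zero.2 h1) (sub_ne_zero.2 h2) hind
  have hGe := hG z₀ hz₀ y₀ hy₀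
  refine ⟨η / 4, by linarith, fun w z y hw hz hy hzE hyE => ?_⟩
  have hz1 : ‖g z - g z₀‖ < η / 4 := by rwa [hg.dist_eq _ _ hzE.1 hz₀.1]
  have hy1 : ‖g y - g y₀‖ < η / 4 := by rwa [hg.dist_eq _ _ hyE.1 hy₀.1]
  have hp1 : ‖g (w - z) - g (w₀ - z₀)‖ < η / 2 := by
    rw [hg.dist_eq _ _ (Ew_rho hzE).1 (Ew_rho hz₀).1]
    have e : w - z - (w₀ - z₀) = (w - w₀) - (z - z₀) := by abel
    rw [e]
    have := norm_sub_le (w - w₀) (z - z₀)
    linarith
  have hr1 : ‖g (w - y) - g (w₀ - y₀)‖ < η / 2 := by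
    rw [hg.dist_eq _ _ (Ew_rho hyE).1 (Ew_rho hy₀).1]
    have e : w - y - (w₀ - y₀) = (w - w₀) - (y - y₀) := by abel
    rw [e]
    have := norm_sub_le (w - w₀) (y - y₀)
    linarith
  set a1 := g z - g z₀ with ha1
  set a2 := g y - g y₀ with ha2
  set a3 := g (w - z) - g (w₀ - z₀) with ha3
  set a4 := g (w - y) - g (w₀ - y₀) with ha4
  apply hr (g z + g (w - z)) (g y + g (w - y)) (g z - g y) (g (w - y) - g (w - z))
    (g z - g (w - y)) (g y - g (w - z))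
  · have e : g z + g (w - z) - (g z₀ + g (w₀ - z₀)) = a1 + a3 := by rw [ha1, ha3]; abel
    rw [e]
    have := norm_add_le a1 a3
    linarith
  · have e : g y + g (w - y) - (g z₀ + g (w₀ - z₀)) = a2 + a4 := by
      rw [hGe, ha2, ha4]; abel
    rw [e]
    have := norm_add_le a2 a4
    linarith
  · have e : g z - g y - (g z₀ - g y₀) = a1 - a2 := by rw [ha1, ha2]; abel
    rw [e]
    have := norm_sub_le a1 a2
    linarith
  · have e : g (w - y) - g (w - z) - (g z₀ - g y₀) = a4 - a3 := by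
      have h3 : g z₀ - g y₀ = g (w₀ - y₀) - g (w₀ - z₀) := by
        rw [sub_eq_sub_iff_add_eq_add, hGe]
        abel
      rw [h3, ha3, ha4]; abel
    rw [e]
    have := norm_sub_le a4 a3
    linarith
  · have e : g z - g (w - y) - (g z₀ - g (w₀ - y₀)) = a1 - a4 := by rw [ha1, ha4]; abel
    rw [e]
    have := norm_sub_le a1 a4
    linarith
  · have e : g y - g (w - z) - (g z₀ - g (w₀ - y₀)) = a2 - a3 := by
      have h3 : g z₀ - g (w₀ - y₀) = g y₀ - g (w₀ - z₀) := by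
        rw [sub_eq_sub_iff_add_eq_add, hGe]
      rw [h3, ha2, ha3]; abel
    rw [e]
    have := norm_sub_le a2 a3
    linarith
  · rw [Kf_norm hg hzE, Kf_norm hg hyE]
  · rw [hg.dist_eq _ _ hzE.1 hyE.1, hg.dist_eq _ _ (Ew_rho hyE).1 (Ew_rho hzE).1]
    have e : w - y - (w - z) = z - y := by abel
    rw [e]
  · rw [hg.dist_eq _ _ hzE.1 (Ew_rho hyE).1, hg.dist_eq _ _ hyE.1 (Ew_rho hzE).1]
    have e : y - (w - z) = z - (w - y) := by abel
    rw [e]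
  · abel
  · abel

/-- The circle of the image center is covered. -/
lemma exists_preimage (hdimU : 3 ≤ Module.finrank ℝ U) (hdimV : Module.finrank ℝ V = 3)
    (hg : SphereIso g) {w₀ z₀ : U} (hG : Good g w₀) (hw₀ : w₀ ≠ 0) (hw2 : ‖w₀‖ < 2)
    (hz₀ : z₀ ∈ Ew w₀) {z' : V} (hz' : z' ∈ Ew (g z₀ + g (w₀ - z₀))) : ∃ z ∈ Ew w₀, g z = z' := by
  set G₀ : V := g z₀ + g (w₀ - z₀) with hG₀
  have hnG : ‖G₀‖ = ‖w₀‖ := Kf_norm hg hz₀
  have hG0 : G₀ ≠ 0 := by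
    intro h0
    rw [h0, norm_zero] at hnG
    exact hw₀ (norm_eq_zero.1 hnG.symm)
  have hG2 : ‖G₀‖ < 2 := by rwa [hnG]
  obtain ⟨π, hker, hsurj⟩ := exists_proj (k := 1) hG0 (by omega)
  let π' : V →L[ℝ] E2 := π
  have hπG : π' G₀ = 0 := (hker G₀).2 ⟨1, by simp⟩
  have hq0 : π' z' ≠ 0 := pi_ne_zero hG2 π' hker hz'
  set L := Lq (π' z') with hL
  have hmem : ∀ p ∈ Ew w₀, g p ∈ Ew G₀ ∧ g p + g (w₀ - p) = G₀ := by
    intro p hp
    have h1 : g p + g (w₀ - p) = G₀ := hG p hp z₀ hz₀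
    refine ⟨⟨hg.norm_one _ hp.1, ?_⟩, h1⟩
    have e : g p - G₀ = -g (w₀ - p) := by rw [← h1]; abel
    rw [e, norm_neg]
    exact hg.norm_one _ (Ew_rho hp).1
  set h : U → ℝ := fun p => L (π' (g p)) with hh
  have hcont : ContinuousOn h (Ew w₀) := by
    have h1 : ContinuousOn g (Ew w₀) := (SphereIso.continuousOn hg).mono fun a ha => ha.1
    exact (L.comp π').continuous.comp_continuousOn h1
  have hodd : ∀ p ∈ Ew w₀, h (w₀ - p) = - h p := by
    intro p hp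
    have h1 : g (w₀ - p) = G₀ - g p := by
      rw [← (hmem p hp).2]; abel
    simp only [hh]
    rw [h1, map_sub, hπG, zero_sub, map_neg]
  have hcs := connectedSpace_Ew3 hdimU hw₀ hw2
  have hconn : IsPreconnected (Ew w₀) := (isConnected_iff_connectedSpace.2 hcs).isPreconnected
  have hex : ∃ p ∈ Ew w₀, h p = 0 := by
    have hiv1 := hconn.intermediate_value hz₀ (Ew_rho hz₀) hcont
    have hiv2 := hconn.intermediate_value (Ew_rho hz₀) hz₀ hcont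
    rw [hodd z₀ hz₀] at hiv1 hiv2
    rcases le_total 0 (h z₀) with h0 | h0
    · obtain ⟨p, hp, hp0⟩ := hiv2 (show (0 : ℝ) ∈ Icc _ _ from ⟨by linarith, h0⟩)
      exact ⟨p, hp, hp0⟩
    · obtain ⟨p, hp, hp0⟩ := hiv1 (show (0 : ℝ) ∈ Icc _ _ from ⟨h0, by linarith⟩)
      exact ⟨p, hp, hp0⟩
  obtain ⟨p, hp, hp0⟩ := hex
  obtain ⟨β, hβ⟩ := exists_of_Lq_eq_zero hq0 hp0
  have hgp := hmem p hp
  have hπp : π' (g p) ≠ 0 := pi_ne_zero hG2 π' hker hgp.1
  have hβ0 : β ≠ 0 := by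
    rintro rfl
    rw [zero_smul] at hβ
    exact hπp hβ
  rcases lt_or_gt_of_ne hβ0 with hneg | hpos
  · refine ⟨w₀ - p, Ew_rho hp, ?_⟩
    have h1 : g (w₀ - p) = G₀ - g p := by
      rw [← hgp.2]; abel
    rw [h1]
    have hx' : G₀ - g p ∈ Ew G₀ := Ew_rho hgp.1
    refine Ew_inj hG0 hG2 π' hker hz' hx' (κ := -β) (by linarith) ?_
    rw [map_sub, hπG, zero_sub, neg_smul]
    exact congrArg Neg.neg hβ
  · exact ⟨p, hp, Ew_inj hG0 hG2 π' hker hz' hgp.1 hpos hβ⟩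

/-- Openness of the good set. -/
theorem good_open (hV : C1Norm V) (hdimU : 3 ≤ Module.finrank ℝ U)
    (hdimV : Module.finrank ℝ V = 3) (hg : SphereIso g) {w₀ : U} (hG : Good g w₀) (hw₀ : w₀ ≠ 0)
    (hw2 : ‖w₀‖ < 2) : ∀ᶠ w in 𝓝 w₀, Good g w := by
  have : ProperSpace U := FiniteDimensional.proper_real U
  set P : U → U → Prop := fun w y => y ∈ Ew w → ∃ ε > 0, ∀ p ∈ Ew w, ‖p - y‖ < ε →
    g p + g (w - p) = g y + g (w - y) with hP
  have hlocal : ∀ y₀ ∈ sphere (0 : U) 1, ∀ᶠ z : U × U in 𝓝 (w₀, y₀), P z.1 z.2 := by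
    intro y₀ hy₀
    have hy₀1 : ‖y₀‖ = 1 := by simpa using hy₀
    by_cases hE : y₀ ∈ Ew w₀
    · -- the main case
      set G₀ : V := g y₀ + g (w₀ - y₀) with hG₀
      have hnG : ‖G₀‖ = ‖w₀‖ := Kf_norm hg hE
      have hG0 : G₀ ≠ 0 := by
        intro h0
        rw [h0, norm_zero] at hnG
        exact hw₀ (norm_eq_zero.1 hnG.symm)
      have hG2 : ‖G₀‖ < 2 := by rwa [hnG]
      have hy' : g y₀ ∈ Ew G₀ := by
        refine ⟨hg.norm_one _ hy₀1, ?_⟩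
        have e : g y₀ - G₀ = -g (w₀ - y₀) := by rw [hG₀]; abel
        rw [e, norm_neg]
        exact hg.norm_one _ (Ew_rho hE).1
      obtain ⟨z', hz', hne1, hne2, hind⟩ := parity hV hdimV hG0 hG2 hy'
      obtain ⟨z₀, hz₀, hgz₀⟩ := exists_preimage hdimU hdimV hg hG hw₀ hw2 hE hz'
      have hGz : g z₀ + g (w₀ - z₀) = G₀ := hG z₀ hz₀ y₀ hE
      have hiy : G₀ - g y₀ = g (w₀ - y₀) := by rw [hG₀]; abel
      rw [hiy] at hne2 hind
      obtain ⟨δ, hδ, hrig⟩ := local_rigid hV hg hG hw₀ hz₀ hE (by rwa [hgz₀]) (by rwa [hgz₀])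
        (by rw [hGz, hgz₀]; exact hind)
      obtain ⟨δ₂, hδ₂, hlsc⟩ := Ew_lsc hw₀ hw2 (by omega) hz₀ hδ
      have hev : ∀ᶠ z : U × U in 𝓝 (w₀, y₀), ‖z.1 - w₀‖ < min δ δ₂ ∧ ‖z.2 - y₀‖ < δ / 2 := by
        have h1 : ∀ᶠ z : U × U in 𝓝 (w₀, y₀), dist z (w₀, y₀) < min (min δ δ₂) (δ / 2) :=
          Metric.ball_mem_nhds _ (lt_min (lt_min hδ hδ₂) (by linarith))
        filter_upwards [h1] with z hz
        rw [Prod.dist_eq, dist_eq_norm, dist_eq_norm] at hz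
        have h2 := lt_of_le_of_lt (le_max_left _ _) hz
        have h3 := lt_of_le_of_lt (le_max_right _ _) hz
        exact ⟨lt_of_lt_of_le h2 (min_le_left _ _), lt_of_lt_of_le h3 (min_le_right _ _)⟩
      filter_upwards [hev] with z hz hzE
      obtain ⟨hz1, hz2⟩ := hz
      have hz1a : ‖z.1 - w₀‖ < δ := lt_of_lt_of_le hz1 (min_le_left _ _)
      have hz1b : ‖z.1 - w₀‖ < δ₂ := lt_of_lt_of_le hz1 (min_le_right _ _)
      obtain ⟨z₁, hz₁, hz₁c⟩ := hlsc z.1 hz1b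
      refine ⟨δ / 2, by linarith, fun p hp hpc => ?_⟩
      have hpc' : ‖p - y₀‖ < δ := by
        have e : p - y₀ = (p - z.2) + (z.2 - y₀) := by abel
        rw [e]
        have := norm_add_le (p - z.2) (z.2 - y₀)
        linarith
      have h1 := hrig z.1 z₁ p hz1a hz₁c hpc' hz₁ hp
      have h2 := hrig z.1 z₁ z.2 hz1a hz₁c (by linarith) hz₁ hzE
      rw [← h1, h2]
    · -- off the circle the statement is empty
      have hne : ‖y₀ - w₀‖ ≠ 1 := fun h => hE ⟨hy₀1, h⟩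
      have hcont : ContinuousAt (fun z : U × U => ‖z.2 - z.1‖) (w₀, y₀) := by fun_prop
      filter_upwards [hcont.eventually_ne hne] with z hz hzE
      exact absurd hzE.2 hz
  have hev := (isCompact_sphere (0 : U) 1).eventually_forall_of_forall_eventually hlocal
  have h0 : ∀ᶠ w in 𝓝 w₀, w ≠ 0 := isOpen_ne.mem_nhds hw₀
  have h2 : ∀ᶠ w in 𝓝 w₀, ‖w‖ < 2 :=
    (isOpen_lt continuous_norm continuous_const).mem_nhds hw2
  filter_upwards [hev, h0, h2] with w hw hw0 hw2' s hs t ht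
  have hcs := connectedSpace_Ew3 hdimU hw0 hw2'
  have hloc : IsLocallyConstant (fun z : Ew w => g z + g (w - z)) := by
    rw [IsLocallyConstant.iff_eventually_eq]
    intro z
    obtain ⟨ε, hε, hε2⟩ := hw z (by simpa using z.2.1) z.2
    filter_upwards [Metric.ball_mem_nhds z hε] with y hy
    have hy' : ‖(y : U) - z‖ < ε := by
      have : dist y z < ε := hy
      rwa [Subtype.dist_eq, dist_eq_norm] at this
    exact hε2 y y.2 hy'
  exact hloc.apply_eq_of_preconnectedSpace ⟨s, hs⟩ ⟨t, ht⟩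

/-- Closedness of the good set. -/
theorem good_closed (hdimU : 3 ≤ Module.finrank ℝ U) (hg : SphereIso g) {w₀ : U} (hw₀ : w₀ ≠ 0)
    (hw2 : ‖w₀‖ < 2) (h : w₀ ∈ closure {w | Good g w}) : Good g w₀ := by
  intro s hs t ht
  have hle : ∀ ε > 0, ‖(g s + g (w₀ - s)) - (g t + g (w₀ - t))‖ ≤ ε := by
    intro ε hε
    have hε8 : 0 < ε / 8 := by linarith
    obtain ⟨δ₁, hδ₁, h1⟩ := Ew_lsc hw₀ hw2 (by omega) hs hε8
    obtain ⟨δ₂, hδ₂, h2⟩ := Ew_lsc hw₀ hw2 (by omega) ht hε8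
    obtain ⟨w, hwG, hw⟩ := Metric.mem_closure_iff.1 h (min (ε / 8) (min δ₁ δ₂))
      (lt_min hε8 (lt_min hδ₁ hδ₂))
    rw [dist_comm, dist_eq_norm] at hw
    have hw1 : ‖w - w₀‖ < ε / 8 := lt_of_lt_of_le hw (min_le_left _ _)
    have hw2' : ‖w - w₀‖ < δ₁ := lt_of_lt_of_le hw ((min_le_right _ _).trans (min_le_left _ _))
    have hw3 : ‖w - w₀‖ < δ₂ := lt_of_lt_of_le hw ((min_le_right _ _).trans (min_le_right _ _))
    obtain ⟨z, hz, hzc⟩ := h1 w hw2'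
    obtain ⟨z', hz', hzc'⟩ := h2 w hw3
    have hG : g z + g (w - z) = g z' + g (w - z') := hwG z hz z' hz'
    have l1 := Kf_lip hg hz hs
    have l2 := Kf_lip hg hz' ht
    rw [← hG] at l2
    have e : (g s + g (w₀ - s)) - (g t + g (w₀ - t))
        = ((g z + g (w - z)) - (g t + g (w₀ - t))) - ((g z + g (w - z)) - (g s + g (w₀ - s))) := by
      abel
    rw [e]
    have := norm_sub_le ((g z + g (w - z)) - (g t + g (w₀ - t)))
      ((g z + g (w - z)) - (g s + g (w₀ - s)))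
    linarith
  have h0 : ‖(g s + g (w₀ - s)) - (g t + g (w₀ - t))‖ ≤ 0 :=
    le_of_forall_pos_le_add fun ε hε => by simpa using hle ε hε
  exact sub_eq_zero.1 (norm_le_zero_iff.1 h0)

/-- All `w` of norm less than two are good. -/
theorem K_const_all (hV : C1Norm V) (hdimU : 3 ≤ Module.finrank ℝ U)
    (hdimV : Module.finrank ℝ V = 3) (hg : SphereIso g) {w : U} (hw2 : ‖w‖ < 2) : Good g w := by
  by_cases hw : w = 0
  · subst hw
    intro s hs t ht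
    have hs1 : ‖s‖ = 1 := hs.1
    have ht1 : ‖t‖ = 1 := ht.1
    rw [zero_sub, zero_sub, hg.odd hs1, hg.odd ht1]
    simp
  have hn : 0 < ‖w‖ := norm_pos_iff.2 hw
  set x : U := ‖w‖⁻¹ • w with hx
  have hx1 : ‖x‖ = 1 := by simpa [hx] using norm_smul_inv_norm (𝕜 := ℝ) hw
  have hx0 : x ≠ 0 := by
    intro h
    rw [h, norm_zero] at hx1
    norm_num at hx1
  have hxw : ‖w‖ • x = w := by
    rw [hx, smul_smul, mul_inv_cancel₀ hn.ne', one_smul]
  set u : Set ℝ := {t | t ∈ Ioo (0 : ℝ) 2 ∧ Good g (t • x)} with hu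
  have hnorm : ∀ t : ℝ, 0 < t → ‖t • x‖ = t := fun t ht => by
    rw [norm_smul, hx1, mul_one, Real.norm_of_nonneg ht.le]
  have hne : ∀ t : ℝ, 0 < t → t • x ≠ 0 := fun t ht => smul_ne_zero ht.ne' hx0
  have huo : IsOpen u := by
    rw [isOpen_iff_mem_nhds]
    rintro t ⟨ht, hgt⟩
    have h1 := good_open hV hdimU hdimV hg hgt (hne t ht.1) (by rw [hnorm t ht.1]; exact ht.2)
    have hc : ContinuousAt (fun t : ℝ => t • x) t := by fun_prop
    filter_upwards [hc.eventually h1, isOpen_Ioo.mem_nhds ht] with t' h2 h3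
    exact ⟨h3, h2⟩
  have hone : (1 : ℝ) ∈ u := by
    refine ⟨⟨by norm_num, by norm_num⟩, ?_⟩
    rw [one_smul]
    intro s hs t ht
    have h1 : g (s + (x - s)) = g s + g (x - s) :=
      SphereIso.add_eq hg hs.1 (Ew_rho hs).1 (by rw [add_sub_cancel]; exact hx1)
    have h2 : g (t + (x - t)) = g t + g (x - t) :=
      SphereIso.add_eq hg ht.1 (Ew_rho ht).1 (by rw [add_sub_cancel]; exact hx1)
    rw [add_sub_cancel] at h1 h2
    rw [← h1, ← h2]
  have hcl : closure u ∩ Ioo (0 : ℝ) 2 ⊆ u := by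
    rintro t ⟨ht1, ht2⟩
    refine ⟨ht2, good_closed hdimU hg (hne t ht2.1) (by rw [hnorm t ht2.1]; exact ht2.2) ?_⟩
    have hc : Continuous (fun t : ℝ => t • x) := by fun_prop
    have h3 := map_mem_closure hc ht1 (t := {w | Good g w}) (fun t' ht' => ht'.2)
    exact h3
  have hsub := isPreconnected_Ioo.subset_of_closure_inter_subset huo
    ⟨1, ⟨by norm_num, by norm_num⟩, hone⟩ hcl
  have hmem := hsub (show ‖w‖ ∈ Ioo (0 : ℝ) 2 from ⟨hn, hw2⟩)
  have := hmem.2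
  rwa [hxw] at this

end

end Vale.Agent.Lib.P084.Dim3
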