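import Vale.Agent.Lib.P084.Dim3.Local

/-! The parity lemma: for a point `y` of the circle `Ew c` in a three dimensional strictly convex
space with `C^1` norm, some `z` on the circle has `ell c`, `ell (z - y)`, `ell (z - (c - y))`
linearly independent. -/

set_option linter.unusedSectionVars false

namespace Vale.Agent.Lib.P084.Dim3

open scoped Topology
open Set Filter Metric Vale.Agent.Lib.P084.Dim4

variable {V : Type*} [NormedAddCommGroup V] [NormedSpace ℝ V]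

/-- Coordinates adapted to `c`. -/
abbrev E2 := EuclideanSpace ℝ (Fin 2)

/-- A frame at `c`: a projection along `c` and two vectors of the kernel of `ell c`. -/
structure Frame (c : V) (π : V →L[ℝ] E2) (e₁ e₂ : V) : Prop where
  e1 : ell c e₁ = 0
  e2 : ell c e₂ = 0
  pi_c : π c = 0
  ker : ∀ x, π x = 0 ↔ ∃ a : ℝ, x = a • c
  decomp : ∀ v, ∃ t : ℝ, v = t • c + (π v 0) • e₁ + (π v 1) • e₂

section

variable [FiniteDimensional ℝ V] [StrictConvexSpace ℝ V]

lemma exists_frame (hV : C1Norm V) (hdim : Module.finrank ℝ V = 3) {c : V} (hc : c ≠ 0)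
    (hc2 : ‖c‖ < 2) :
    ∃ (π : V →L[ℝ] E2) (e₁ e₂ : V), Frame c π e₁ e₂ ∧ Proj c π := by
  obtain ⟨π, hker, hsurj⟩ := exists_proj (k := 1) hc (by omega)
  let π' : V →L[ℝ] E2 := π
  have hpic : π' c = 0 := (hker c).2 ⟨1, by simp⟩
  have hn : 0 < ‖c‖ := norm_pos_iff.2 hc
  have hself : ell c c = ‖c‖ := ell_self hV hc
  obtain ⟨a₁, ha₁⟩ := hsurj (EuclideanSpace.single (0 : Fin 2) (1 : ℝ))
  obtain ⟨a₂, ha₂⟩ := hsurj (EuclideanSpace.single (1 : Fin 2) (1 : ℝ))
  set e₁ : V := a₁ - (ell c a₁ / ‖c‖) • c with he₁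
  set e₂ : V := a₂ - (ell c a₂ / ‖c‖) • c with he₂
  have h1 : π' e₁ = EuclideanSpace.single (0 : Fin 2) (1 : ℝ) := by
    rw [he₁, map_sub, map_smul, hpic, smul_zero, sub_zero]
    exact ha₁
  have h2 : π' e₂ = EuclideanSpace.single (1 : Fin 2) (1 : ℝ) := by
    rw [he₂, map_sub, map_smul, hpic, smul_zero, sub_zero]
    exact ha₂
  refine ⟨π', e₁, e₂, ⟨?_, ?_, hpic, hker, ?_⟩, ⟨hc, hc2, hker, hsurj⟩⟩
  · rw [he₁, map_sub, map_smul, hself, smul_eq_mul]
    field_simp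
    ring
  · rw [he₂, map_sub, map_smul, hself, smul_eq_mul]
    field_simp
    ring
  · intro v
    have h0 : π' (v - (π' v 0) • e₁ - (π' v 1) • e₂) = 0 := by
      rw [map_sub, map_sub, map_smul, map_smul, h1, h2]
      ext i
      fin_cases i <;> simp
    obtain ⟨t, ht⟩ := (hker _).1 h0
    refine ⟨t, ?_⟩
    rw [← ht]
    abel

variable {c : V} {π : V →L[ℝ] E2} {e₁ e₂ : V}

lemma Frame.dep_det (hF : Frame c π e₁ e₂) (hV : C1Norm V) (hc : c ≠ 0) {ψ ψ' : V →L[ℝ] ℝ} {a : V}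
    (h0 : ell c a = 0) (h1 : ψ a = 0) (h2 : ψ' a = 0) (ha : a ≠ 0) :
    ψ e₁ * ψ' e₂ - ψ e₂ * ψ' e₁ = 0 := by
  obtain ⟨t, ht⟩ := hF.decomp a
  have hn : ‖c‖ ≠ 0 := norm_ne_zero_iff.2 hc
  have htz : t = 0 := by
    have h3 := congrArg (ell c) ht
    rw [map_add, map_add, map_smul, map_smul, map_smul, hF.e1, hF.e2, ell_self hV hc, h0] at h3
    simp only [smul_eq_mul, mul_zero, add_zero] at h3
    rcases mul_eq_zero.1 h3.symm with h4 | h4
    · exact h4
    · exact absurd h4 hn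
  rw [htz, zero_smul, zero_add] at ht
  set a₁ := π a 0
  set a₂ := π a 1
  have e1 : a₁ * ψ e₁ + a₂ * ψ e₂ = 0 := by
    have h3 := congrArg ψ ht
    rw [h1, map_add, map_smul, map_smul] at h3
    simpa using h3.symm
  have e2 : a₁ * ψ' e₁ + a₂ * ψ' e₂ = 0 := by
    have h3 := congrArg ψ' ht
    rw [h2, map_add, map_smul, map_smul] at h3
    simpa using h3.symm
  have hne : a₁ ≠ 0 ∨ a₂ ≠ 0 := by
    by_contra hcon
    push Not at hcon
    apply ha
    rw [ht, hcon.1, hcon.2]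
    simp
  rcases hne with h3 | h3
  · have : (ψ e₁ * ψ' e₂ - ψ e₂ * ψ' e₁) * a₁ = 0 := by
      linear_combination ψ' e₂ * e1 - ψ e₂ * e2
    rcases mul_eq_zero.1 this with h4 | h4
    · exact h4
    · exact absurd h4 h3
  · have : (ψ e₁ * ψ' e₂ - ψ e₂ * ψ' e₁) * a₂ = 0 := by
      linear_combination ψ e₁ * e2 - ψ' e₁ * e1
    rcases mul_eq_zero.1 this with h4 | h4
    · exact h4
    · exact absurd h4 h3

lemma Frame.rho_ne (hF : Frame c π e₁ e₂) (hV : C1Norm V) (hc : c ≠ 0) {u : V} (hu : u ≠ 0)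
    (hπu : π u ≠ 0) : ¬ (ell u e₁ = 0 ∧ ell u e₂ = 0) := by
  rintro ⟨h1, h2⟩
  have hnc : 0 < ‖c‖ := norm_pos_iff.2 hc
  have hnu : 0 < ‖u‖ := norm_pos_iff.2 hu
  obtain ⟨t, ht⟩ := hF.decomp u
  have hA : ell u u = t * ell u c := by
    have h3 := congrArg (ell u) ht
    rw [map_add, map_add, map_smul, map_smul, map_smul, h1, h2] at h3
    simpa using h3
  have hB : ell c u = t * ‖c‖ := by
    have h3 := congrArg (ell c) ht
    rw [map_add, map_add, map_smul, map_smul, map_smul, hF.e1, hF.e2, ell_self hV hc] at h3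
    simpa using h3
  rw [ell_self hV hu] at hA
  have hb1 := abs_ell_le hV hu c
  have hb2 := abs_ell_le hV hc u
  -- `|t| ‖c‖ = ‖u‖`
  have hteq : |t| * ‖c‖ = ‖u‖ := by
    have h3 : ‖u‖ ≤ |t| * ‖c‖ := by
      calc ‖u‖ = |t * ell u c| := by rw [← hA, abs_of_pos hnu]
        _ = |t| * |ell u c| := abs_mul _ _
        _ ≤ |t| * ‖c‖ := mul_le_mul_of_nonneg_left hb1 (abs_nonneg _)
    have h4 : |t| * ‖c‖ ≤ ‖u‖ := by
      have : |ell c u| = |t| * ‖c‖ := by rw [hB, abs_mul, abs_of_pos hnc]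
      rw [← this]
      exact hb2
    exact le_antisymm h4 h3
  have hc1 : ‖‖c‖⁻¹ • c‖ = 1 := by simpa using norm_smul_inv_norm (𝕜 := ℝ) hc
  have hell : ell (‖c‖⁻¹ • c) = ell c := ell_smul hV hc (inv_pos.2 hnc)
  have hu1 : ‖‖u‖⁻¹ • u‖ = 1 := by simpa using norm_smul_inv_norm (𝕜 := ℝ) hu
  have hπc : π (‖c‖⁻¹ • c) = 0 := by rw [map_smul, hF.pi_c, smul_zero]
  have hinv : ‖u‖⁻¹ * ‖u‖ = 1 := inv_mul_cancel₀ hnu.ne'
  rcases le_total 0 t with ht0 | ht0
  · have hval : ell c (‖u‖⁻¹ • u) = 1 := by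
      rw [map_smul, hB, smul_eq_mul, ← hteq, abs_of_nonneg ht0]
      rw [← hteq, abs_of_nonneg ht0] at hinv
      exact hinv
    rw [← hell] at hval
    have h5 := eq_of_ell_eq_one hV hc1 hu1 hval
    apply hπu
    have h6 := congrArg π h5
    rw [hπc, map_smul] at h6
    rcases smul_eq_zero.1 h6 with h7 | h7
    · exact absurd h7 (inv_ne_zero hnu.ne')
    · exact h7
  · have hval : ell c (-(‖u‖⁻¹ • u)) = 1 := by
      rw [map_neg, map_smul, hB, smul_eq_mul, ← hteq, abs_of_nonpos ht0]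
      rw [← hteq, abs_of_nonpos ht0] at hinv
      linarith
    rw [← hell] at hval
    have h5 := eq_of_ell_eq_one hV hc1 (by rw [norm_neg]; exact hu1) hval
    apply hπu
    have h6 := congrArg π h5
    rw [hπc, map_neg, map_smul, neg_eq_zero] at h6
    rcases smul_eq_zero.1 h6 with h7 | h7
    · exact absurd h7 (inv_ne_zero hnu.ne')
    · exact h7

/-- The functional whose kernel is the plane through `c` and a vector over `q`. -/
noncomputable def Lq (q : E2) : E2 →L[ℝ] ℝ :=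
  (q 0) • EuclideanSpace.proj (1 : Fin 2) - (q 1) • EuclideanSpace.proj (0 : Fin 2)

lemma Lq_apply (q t : E2) : Lq q t = q 0 * t 1 - q 1 * t 0 := by
  simp [Lq]

lemma Lq_self (q : E2) : Lq q q = 0 := by
  rw [Lq_apply]; ring

lemma exists_of_Lq_eq_zero {q t : E2} (hq : q ≠ 0) (h : Lq q t = 0) : ∃ β : ℝ, t = β • q := by
  rw [Lq_apply] at h
  have hpos : 0 < q 0 ^ 2 + q 1 ^ 2 := by
    by_contra hcon
    have h1 : q 0 = 0 := by nlinarith [sq_nonneg (q 0), sq_nonneg (q 1)]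
    have h2 : q 1 = 0 := by nlinarith [sq_nonneg (q 0), sq_nonneg (q 1)]
    apply hq
    ext i
    fin_cases i
    · simpa using h1
    · simpa using h2
  refine ⟨(q 0 * t 0 + q 1 * t 1) / (q 0 ^ 2 + q 1 ^ 2), ?_⟩
  ext i
  fin_cases i
  · simp only [Fin.zero_eta, Fin.isValue, PiLp.smul_apply, smul_eq_mul]
    field_simp
    linear_combination (-(q 1)) * h
  · simp only [Fin.mk_one, Fin.isValue, PiLp.smul_apply, smul_eq_mul]
    field_simp
    linear_combination (q 0) * h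

lemma exists_Lq_pos {q : E2} (hq : q ≠ 0) : ∃ e : E2, 0 < Lq q e := by
  have hpos : 0 < q 0 ^ 2 + q 1 ^ 2 := by
    by_contra hcon
    have h1 : q 0 = 0 := by nlinarith [sq_nonneg (q 0), sq_nonneg (q 1)]
    have h2 : q 1 = 0 := by nlinarith [sq_nonneg (q 0), sq_nonneg (q 1)]
    apply hq
    ext i
    fin_cases i
    · simpa using h1
    · simpa using h2
  refine ⟨(q 0) • EuclideanSpace.single (1 : Fin 2) (1 : ℝ)
    - (q 1) • EuclideanSpace.single (0 : Fin 2) (1 : ℝ), ?_⟩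
  rw [Lq_apply]
  simp
  nlinarith

/-- The inverse parametrisation of the circle by the plane minus the origin. -/
lemma exists_Q {c : V} {π : V →L[ℝ] E2} (h : Proj c π) :
    ∃ Q : E2 → V, (∀ t, t ≠ 0 → Q t ∈ Ew c ∧ ∃ κ : ℝ, 0 < κ ∧ π (Q t) = κ • t) ∧
      ContinuousOn Q {t | t ≠ 0} ∧ ∀ z ∈ Ew c, Q (π z) = z := by
  classical
  obtain ⟨Θ, hΘ⟩ := Proj.exists_theta' h
  have hnorm : ∀ t : E2, t ≠ 0 → ‖t‖⁻¹ • t ∈ sphere (0 : E2) 1 := by
    intro t ht
    simpa using norm_smul_inv_norm (𝕜 := ℝ) ht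
  set Q : E2 → V := fun t => if ht : t ≠ 0 then (Θ.symm ⟨‖t‖⁻¹ • t, hnorm t ht⟩ : V) else 0 with hQ
  have hQv : ∀ t (ht : t ≠ 0), Q t = (Θ.symm ⟨‖t‖⁻¹ • t, hnorm t ht⟩ : V) := fun t ht => by
    simp only [hQ, dif_pos ht]
  refine ⟨Q, ?_, ?_, ?_⟩
  · intro t ht
    rw [hQv t ht]
    refine ⟨(Θ.symm _).2, ?_⟩
    set z := Θ.symm ⟨‖t‖⁻¹ • t, hnorm t ht⟩ with hz
    have h1 : Θ z = ⟨‖t‖⁻¹ • t, hnorm t ht⟩ := by rw [hz]; simp
    have h2 : ‖π (z : V)‖⁻¹ • π (z : V) = ‖t‖⁻¹ • t := by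
      rw [← hΘ z, h1]
    have h3 : π (z : V) ≠ 0 := pi_ne_zero h.hw2 π h.ker z.2
    have hn1 : 0 < ‖π (z : V)‖ := norm_pos_iff.2 h3
    have hn2 : 0 < ‖t‖ := norm_pos_iff.2 ht
    refine ⟨‖π (z : V)‖ * ‖t‖⁻¹, by positivity, ?_⟩
    rw [mul_smul, ← h2, smul_smul, mul_inv_cancel₀ hn1.ne', one_smul]
  · rw [continuousOn_iff_continuous_restrict]
    have hc1 : Continuous fun t : {t : E2 | t ≠ 0} =>
        (⟨‖(t : E2)‖⁻¹ • (t : E2), hnorm t t.2⟩ : sphere (0 : E2) 1) := by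
      apply Continuous.subtype_mk
      exact (continuous_subtype_val.norm.inv₀ (fun t => norm_ne_zero_iff.2 t.2)).smul
        continuous_subtype_val
    have hc2 := continuous_subtype_val.comp (Θ.symm.continuous.comp hc1)
    convert hc2 using 1
    ext t
    exact hQv t t.2
  · intro z hz
    have h3 : π z ≠ 0 := pi_ne_zero h.hw2 π h.ker hz
    rw [hQv _ h3]
    have h1 : (⟨‖π z‖⁻¹ • π z, hnorm _ h3⟩ : sphere (0 : E2) 1) = Θ ⟨z, hz⟩ := by
      apply Subtype.ext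
      exact (hΘ ⟨z, hz⟩).symm
    rw [h1]
    simp

/-- No tangent vector of the circle at `y` lies in the plane through `c` and `y`. -/
lemma no_tangent_in_plane (hV : C1Norm V) {c y : V} (hc : c ≠ 0) (hc2 : ‖c‖ < 2) (hy : y ∈ Ew c)
    {d : V} {β α : ℝ} (hd : d = β • y + α • c) (h1 : ell y d = 0) (h2 : ell (y - c) d = 0) :
    d = 0 := by
  set u := y - c with hu
  have hy1 : ‖y‖ = 1 := hy.1
  have hu1 : ‖u‖ = 1 := hy.2
  have hy0 : y ≠ 0 := by
    rintro rfl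
    simp at hy1
  have hu0 : u ≠ 0 := by
    intro h
    rw [h] at hu1
    simp at hu1
  have hcu : c = y - u := by rw [hu]; abel
  set p := ell y u with hp
  set q' := ell u y with hq'
  have hpl : p < 1 := by
    have h3 : p ≤ 1 := by
      have := ell_le hV hy0 u
      rwa [hu1] at this
    rcases h3.lt_or_eq with h4 | h4
    · exact h4
    · exfalso
      have := eq_of_ell_eq_one hV hy1 hu1 h4
      apply hc
      have h5 : y - c = y := this
      simpa using h5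
  have hpg : -1 < p := by
    have h3 : -1 ≤ p := by
      have := ell_le hV hy0 (-u)
      rw [map_neg, norm_neg, hu1] at this
      linarith
    rcases h3.lt_or_eq with h4 | h4
    · exact h4
    · exfalso
      have h5 : ell y (-u) = 1 := by rw [map_neg, ← hp, ← h4]; norm_num
      have h6 := eq_of_ell_eq_one hV hy1 (by rw [norm_neg]; exact hu1) h5
      have h7 : c = (2 : ℝ) • y := by
        rw [two_smul]
        have : y - c = -y := by rw [← hu, ← h6]; abel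
        have h8 : c = y - (y - c) := by abel
        rw [h8, this]
        abel
      rw [h7, norm_smul, hy1] at hc2
      norm_num at hc2
  have hq1 : |q'| ≤ 1 := by
    have := abs_ell_le hV hu0 y
    rwa [hy1] at this
  have e1 : β + α * (1 - p) = 0 := by
    have h3 : ell y d = β * 1 + α * (1 - p) := by
      rw [hd, map_add, map_smul, map_smul, hcu, map_sub, ell_self hV hy0, hy1]
      simp [hp]
    rw [h1] at h3
    linarith
  have e2 : β * q' + α * (q' - 1) = 0 := by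
    have h3 : ell u d = β * q' + α * (q' - 1) := by
      rw [hd, map_add, map_smul, map_smul, hcu, map_sub, ell_self hV hu0, hu1]
      simp [hq']
    rw [h2] at h3
    linarith
  have hprod : p * q' < 1 := by
    have h3 : |p * q'| < 1 := by
      rw [abs_mul]
      have h4 : |p| < 1 := abs_lt.2 ⟨hpg, hpl⟩
      have h5 := abs_nonneg q'
      have h6 := abs_nonneg p
      nlinarith
    exact (abs_lt.1 h3).2
  have hα : α = 0 := by
    have h3 : α * (p * q' - 1) = 0 := by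
      linear_combination e2 - q' * e1
    rcases mul_eq_zero.1 h3 with h4 | h4
    · exact h4
    · linarith
  have hβ : β = 0 := by
    rw [hα] at e1
    linarith
  rw [hd, hα, hβ]
  simp

end

section Main

variable [FiniteDimensional ℝ V] [StrictConvexSpace ℝ V]

/-- The inner product of the restrictions to the kernel of `ell c`. -/
noncomputable def RR (c y e₁ e₂ : V) (z : V) : ℝ :=
  ell (z - y) e₁ * ell (z - (c - y)) e₁ + ell (z - y) e₂ * ell (z - (c - y)) e₂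

lemma RR_symm (hV : C1Norm V) {c y e₁ e₂ z : V} (h1 : z ≠ y) (h2 : z ≠ c - y) :
    RR c y e₁ e₂ (c - z) = RR c y e₁ e₂ z := by
  have e1 : c - z - y = -(z - (c - y)) := by abel
  have e2 : c - z - (c - y) = -(z - y) := by abel
  simp only [RR]
  rw [e1, e2, ell_neg hV (sub_ne_zero.2 h2), ell_neg hV (sub_ne_zero.2 h1)]
  simp only [neg_apply]
  ring

lemma continuousAt_RR (hV : C1Norm V) {c y e₁ e₂ z : V} (h1 : z ≠ y) (h2 : z ≠ c - y) :
    ContinuousAt (RR c y e₁ e₂) z := by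
  have a : ContinuousAt (fun z => ell (z - y)) z :=
    ContinuousAt.comp (f := fun z => z - y) (g := ell)
      (continuousAt_ell hV (sub_ne_zero.2 h1)) (continuous_id.sub continuous_const).continuousAt
  have b : ContinuousAt (fun z => ell (z - (c - y))) z :=
    ContinuousAt.comp (f := fun z => z - (c - y)) (g := ell)
      (continuousAt_ell hV (sub_ne_zero.2 h2)) (continuous_id.sub continuous_const).continuousAt
  exact ((a.clm_apply continuousAt_const).mul (b.clm_apply continuousAt_const)).add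
    ((a.clm_apply continuousAt_const).mul (b.clm_apply continuousAt_const))

lemma exists_direction (hV : C1Norm V) {c y : V} (hy : y ∈ Ew c) {x : ℕ → V}
    (hx : ∀ n, x n ∈ Ew c) (hne : ∀ n, x n ≠ y) (hlim : Tendsto x atTop (𝓝 y)) :
    ∃ (φ : ℕ → ℕ) (d : V), StrictMono φ ∧ ‖d‖ = 1 ∧
      Tendsto (fun n => ‖x (φ n) - y‖⁻¹ • (x (φ n) - y)) atTop (𝓝 d) ∧
      ell y d = 0 ∧ ell (y - c) d = 0 := by
  have : ProperSpace V := FiniteDimensional.proper_real V
  have hD : ∀ n, ‖x n - y‖⁻¹ • (x n - y) ∈ sphere (0 : V) 1 := by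
    intro n
    have h1 : x n - y ≠ 0 := sub_ne_zero.2 (hne n)
    simpa using norm_smul_inv_norm (𝕜 := ℝ) h1
  obtain ⟨d, hd, φ, hφ, hlimd⟩ := (isCompact_sphere (0 : V) 1).tendsto_subseq hD
  have hd1 : ‖d‖ = 1 := by simpa using hd
  have hy0 : y ≠ 0 := by
    intro h
    have := hy.1
    rw [h] at this
    simp at this
  have hyc0 : y - c ≠ 0 := by
    intro h
    have := hy.2
    rw [h] at this
    simp at this
  have hl1 : Tendsto (fun n => x (φ n)) atTop (𝓝 y) := hlim.comp hφ.tendsto_atTop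
  refine ⟨φ, d, hφ, hd1, hlimd, ?_, ?_⟩
  · exact chord_tangent hV hy0 hl1 tendsto_const_nhds
      (fun n => by rw [(hx (φ n)).1, hy.1]) hlimd (fun n => hne _)
  · have hl2 : Tendsto (fun n => x (φ n) - c) atTop (𝓝 (y - c)) := hl1.sub tendsto_const_nhds
    refine chord_tangent hV hyc0 hl2 tendsto_const_nhds
      (fun n => by rw [(hx (φ n)).2, hy.2]) (d := d) ?_ ?_
    · have e : ∀ n, x (φ n) - c - (y - c) = x (φ n) - y := fun n => by abel
      simp only [e]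
      exact hlimd
    · intro n h
      exact hne (φ n) (sub_left_injective h)

/-- The parity lemma. -/
theorem parity (hV : C1Norm V) (hdim : Module.finrank ℝ V = 3) {c y : V} (hc : c ≠ 0)
    (hc2 : ‖c‖ < 2) (hy : y ∈ Ew c) :
    ∃ z ∈ Ew c, z ≠ y ∧ z ≠ c - y ∧
      ∀ a, ell c a = 0 → ell (z - y) a = 0 → ell (z - (c - y)) a = 0 → a = 0 := by
  by_contra hcon
  push Not at hcon
  obtain ⟨π, e₁, e₂, hF, hP⟩ := exists_frame hV hdim hc hc2
  obtain ⟨Q, hQ1, hQ2, hQ3⟩ := exists_Q hP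
  set q := π y with hq
  have hq0 : q ≠ 0 := pi_ne_zero hc2 π hF.ker hy
  set L := Lq q with hL
  set s : V →L[ℝ] ℝ := L.comp π with hs
  have hsapp : ∀ v, s v = L (π v) := fun v => rfl
  have hsc : s c = 0 := by rw [hsapp, hF.pi_c, map_zero]
  have hsy : s y = 0 := by rw [hsapp, ← hq]; exact Lq_self q
  have hπiy : π (c - y) = -q := by rw [map_sub, hF.pi_c, zero_sub]
  have hsiy : s (c - y) = 0 := by rw [map_sub, hsc, hsy, sub_zero]
  have hoff : ∀ z, s z ≠ 0 → z ≠ y ∧ z ≠ c - y ∧ z - y ≠ 0 ∧ z - (c - y) ≠ 0 ∧ π (z - y) ≠ 0 ∧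
      π (z - (c - y)) ≠ 0 := by
    intro z hz
    have h1 : z ≠ y := by
      rintro rfl
      exact hz hsy
    have h2 : z ≠ c - y := by
      rintro rfl
      exact hz hsiy
    refine ⟨h1, h2, sub_ne_zero.2 h1, sub_ne_zero.2 h2, ?_, ?_⟩
    · intro h3
      apply hz
      have h4 : s (z - y) = 0 := by rw [hsapp, h3, map_zero]
      rw [map_sub, hsy, sub_zero] at h4
      exact h4
    · intro h3
      apply hz
      have h4 : s (z - (c - y)) = 0 := by rw [hsapp, h3, map_zero]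
      rw [map_sub, hsiy, sub_zero] at h4
      exact h4
  have hdet : ∀ z ∈ Ew c, s z ≠ 0 →
      ell (z - y) e₁ * ell (z - (c - y)) e₂ - ell (z - y) e₂ * ell (z - (c - y)) e₁ = 0 := by
    intro z hz hsz
    obtain ⟨h1, h2, -, -, -, -⟩ := hoff z hsz
    obtain ⟨a, ha0, ha1, ha2, ha⟩ := hcon z hz h1 h2
    exact hF.dep_det hV hc ha0 ha1 ha2 ha
  have hlag : ∀ p₁ p₂ r₁ r₂ : ℝ, p₁ * r₂ - p₂ * r₁ = 0 → ¬ (p₁ = 0 ∧ p₂ = 0) → ¬ (r₁ = 0 ∧ r₂ = 0) →
      p₁ * r₁ + p₂ * r₂ ≠ 0 := by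
    intro p₁ p₂ r₁ r₂ h1 h2 h3 h4
    have h5 : (p₁ ^ 2 + p₂ ^ 2) * (r₁ ^ 2 + r₂ ^ 2) = 0 := by
      have : (p₁ ^ 2 + p₂ ^ 2) * (r₁ ^ 2 + r₂ ^ 2)
          = (p₁ * r₁ + p₂ * r₂) ^ 2 + (p₁ * r₂ - p₂ * r₁) ^ 2 := by ring
      rw [this, h1, h4]
      norm_num
    rcases mul_eq_zero.1 h5 with h6 | h6
    · exact h2 ⟨by nlinarith [sq_nonneg p₁, sq_nonneg p₂], by nlinarith [sq_nonneg p₁, sq_nonneg p₂]⟩
    · exact h3 ⟨by nlinarith [sq_nonneg r₁, sq_nonneg r₂], by nlinarith [sq_nonneg r₁, sq_nonneg r₂]⟩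
  have hR0 : ∀ z ∈ Ew c, s z ≠ 0 → RR c y e₁ e₂ z ≠ 0 := by
    intro z hz hsz
    obtain ⟨-, -, h3, h4, h5, h6⟩ := hoff z hsz
    exact hlag _ _ _ _ (hdet z hz hsz) (hF.rho_ne hV hc h3 h5) (hF.rho_ne hV hc h4 h6)
  -- the half plane and the constant sign
  have hQs : ∀ t, 0 < L t → Q t ∈ Ew c ∧ 0 < s (Q t) := by
    intro t ht
    have ht0 : t ≠ 0 := by
      rintro rfl
      simp at ht
    obtain ⟨h1, κ, hκ, h2⟩ := hQ1 t ht0
    refine ⟨h1, ?_⟩
    rw [hsapp, h2, map_smul, smul_eq_mul]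
    positivity
  have hHp : IsPreconnected {t : E2 | 0 < L t} :=
    (convex_halfSpace_gt L.toLinearMap.isLinear 0).isPreconnected
  have hfc : ContinuousOn (fun t => RR c y e₁ e₂ (Q t)) {t : E2 | 0 < L t} := by
    intro t ht
    have ht0 : t ≠ 0 := by
      rintro rfl
      simp at ht
    have h1 : ContinuousWithinAt Q {t : E2 | 0 < L t} t :=
      (hQ2 t ht0).mono (fun t' ht' => by
        rintro rfl
        simp at ht')
    obtain ⟨h2, h3, -, -, -, -⟩ := hoff (Q t) (hQs t ht).2.ne'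
    exact ContinuousAt.comp_continuousWithinAt (continuousAt_RR hV h2 h3) h1
  have hsame : ∀ z₁ ∈ Ew c, ∀ z₂ ∈ Ew c, 0 < s z₁ → 0 < s z₂ →
      0 ≤ RR c y e₁ e₂ z₁ * RR c y e₁ e₂ z₂ := by
    intro z₁ h1 z₂ h2 hs1 hs2
    by_contra hneg
    have hlt : RR c y e₁ e₂ z₁ * RR c y e₁ e₂ z₂ < 0 := not_le.1 hneg
    have ht1 : π z₁ ∈ {t : E2 | 0 < L t} := hs1
    have ht2 : π z₂ ∈ {t : E2 | 0 < L t} := hs2
    have hf1 : RR c y e₁ e₂ (Q (π z₁)) = RR c y e₁ e₂ z₁ := by rw [hQ3 z₁ h1]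
    have hf2 : RR c y e₁ e₂ (Q (π z₂)) = RR c y e₁ e₂ z₂ := by rw [hQ3 z₂ h2]
    have hzero : ∃ t ∈ {t : E2 | 0 < L t}, RR c y e₁ e₂ (Q t) = 0 := by
      rcases mul_neg_iff.1 hlt with ⟨h3, h4⟩ | ⟨h3, h4⟩
      · have := hHp.intermediate_value ht2 ht1 hfc
        simp only [hf1, hf2] at this
        obtain ⟨t, ht, h5⟩ := this (show (0 : ℝ) ∈ Icc _ _ from ⟨h4.le, h3.le⟩)
        exact ⟨t, ht, h5⟩
      · have := hHp.intermediate_value ht1 ht2 hfc
        simp only [hf1, hf2] at this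
        obtain ⟨t, ht, h5⟩ := this (show (0 : ℝ) ∈ Icc _ _ from ⟨h3.le, h4.le⟩)
        exact ⟨t, ht, h5⟩
    obtain ⟨t, ht, h5⟩ := hzero
    exact hR0 (Q t) (hQs t ht).1 (hQs t ht).2.ne' h5
  -- no tangent in the plane of `c` and `y`
  have hnt : ∀ d, ell y d = 0 → ell (y - c) d = 0 → s d = 0 → d = 0 := by
    intro d h1 h2 h3
    obtain ⟨β, hβ⟩ := exists_of_Lq_eq_zero hq0 h3
    have h4 : π (d - β • y) = 0 := by
      rw [map_sub, map_smul, ← hq]
      exact sub_eq_zero.2 hβ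
    obtain ⟨α, hα⟩ := (hF.ker _).1 h4
    have hd : d = β • y + α • c := by
      rw [← hα]; abel
    exact no_tangent_in_plane hV hc hc2 hy hd h1 h2
  -- the two sequences
  obtain ⟨e, he⟩ := exists_Lq_pos hq0
  have hinv : Tendsto (fun n : ℕ => (1 / ((n : ℝ) + 1))) atTop (𝓝 0) :=
    tendsto_one_div_add_atTop_nhds_zero_nat
  have hQq : Q q = y := hQ3 y hy
  have hQcont : ContinuousAt Q q := (hQ2 q hq0).continuousAt (isOpen_ne.mem_nhds hq0)
  have hinvpos : ∀ n : ℕ, 0 < 1 / ((n : ℝ) + 1) := fun n => by positivity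
  -- positive side
  set zp : ℕ → V := fun n => Q (q + (1 / ((n : ℝ) + 1)) • e) with hzp
  set zm : ℕ → V := fun n => Q (q + (-(1 / ((n : ℝ) + 1))) • e) with hzm
  have hLp : ∀ n : ℕ, 0 < L (q + (1 / ((n : ℝ) + 1)) • e) := fun n => by
    rw [map_add, map_smul, smul_eq_mul, hL, Lq_self, zero_add]
    exact mul_pos (hinvpos n) he
  have hLm : ∀ n : ℕ, L (q + (-(1 / ((n : ℝ) + 1))) • e) < 0 := fun n => by
    rw [map_add, map_smul, smul_eq_mul, hL, Lq_self, zero_add]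
    have := mul_pos (hinvpos n) he
    linarith
  have hzp1 : ∀ n, zp n ∈ Ew c ∧ 0 < s (zp n) := fun n => hQs _ (hLp n)
  have hzm1 : ∀ n, zm n ∈ Ew c ∧ s (zm n) < 0 := by
    intro n
    have ht0 : q + (-(1 / ((n : ℝ) + 1))) • e ≠ 0 := by
      intro h0
      have := hLm n
      rw [h0, map_zero] at this
      exact lt_irrefl _ this
    obtain ⟨h1, κ, hκ, h2⟩ := hQ1 _ ht0
    refine ⟨h1, ?_⟩
    rw [hsapp, h2, map_smul, smul_eq_mul]
    exact mul_neg_of_pos_of_neg hκ (hLm n)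
  have hzpl : Tendsto zp atTop (𝓝 y) := by
    rw [← hQq]
    apply hQcont.tendsto.comp
    have := (hinv.smul_const e).const_add q
    simpa using this
  have hzml : Tendsto zm atTop (𝓝 y) := by
    rw [← hQq]
    apply hQcont.tendsto.comp
    have := (hinv.neg.smul_const e).const_add q
    simpa using this
  obtain ⟨φp, dp, hφp, hdp1, hDp, hdpy, hdpc⟩ := exists_direction hV hy (fun n => (hzp1 n).1)
    (fun n => (hoff _ (hzp1 n).2.ne').1) hzpl
  obtain ⟨φm, dm, hφm, hdm1, hDm, hdmy, hdmc⟩ := exists_direction hV hy (fun n => (hzm1 n).1)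
    (fun n => (hoff _ (hzm1 n).2.ne).1) hzml
  have hdp0 : dp ≠ 0 := by
    rintro rfl
    simp at hdp1
  have hdm0 : dm ≠ 0 := by
    rintro rfl
    simp at hdm1
  -- signs of the limit directions
  have hsdp : 0 ≤ s dp := by
    have hl : Tendsto (fun n => s (‖zp (φp n) - y‖⁻¹ • (zp (φp n) - y))) atTop (𝓝 (s dp)) :=
      (s.continuous.tendsto dp).comp hDp
    refine ge_of_tendsto' hl fun n => ?_
    rw [map_smul, map_sub, hsy, sub_zero, smul_eq_mul]
    have := (hzp1 (φp n)).2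
    positivity
  have hsdm : s dm ≤ 0 := by
    have hl : Tendsto (fun n => s (‖zm (φm n) - y‖⁻¹ • (zm (φm n) - y))) atTop (𝓝 (s dm)) :=
      (s.continuous.tendsto dm).comp hDm
    refine le_of_tendsto' hl fun n => ?_
    rw [map_smul, map_sub, hsy, sub_zero, smul_eq_mul]
    have := (hzm1 (φm n)).2
    have h2 : 0 ≤ ‖zm (φm n) - y‖⁻¹ := by positivity
    nlinarith
  have hsdp' : 0 < s dp := lt_of_le_of_ne hsdp (fun h => hdp0 (hnt dp hdpy hdpc h.symm))
  have hsdm' : s dm < 0 := lt_of_le_of_ne hsdm (fun h => hdm0 (hnt dm hdmy hdmc h))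
  -- the two directions are opposite
  have hopp : dm = -dp := by
    set κ : ℝ := -(s dm) / s dp with hκ
    have hκ0 : 0 < κ := div_pos (by linarith) hsdp'
    have hv : dm + κ • dp = 0 := by
      apply hnt
      · rw [map_add, map_smul, hdmy, hdpy]; simp
      · rw [map_add, map_smul, hdmc, hdpc]; simp
      · rw [map_add, map_smul, smul_eq_mul, hκ]
        field_simp
        ring
    have h1 : dm = -(κ • dp) := eq_neg_of_add_eq_zero_left hv
    have h2 : κ = 1 := by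
      have h3 := congrArg norm h1
      rw [norm_neg, norm_smul, hdm1, hdp1, mul_one, Real.norm_of_nonneg hκ0.le] at h3
      exact h3.symm
    rw [h1, h2, one_smul]
  -- limits of the functionals
  set w₀ : V := y - (c - y) with hw₀
  have hπw₀ : π w₀ ≠ 0 := by
    rw [hw₀, map_sub, hπiy, sub_neg_eq_add, ← hq]
    intro h0
    have h1 : (2 : ℝ) • q = 0 := by rw [two_smul]; exact h0
    rcases smul_eq_zero.1 h1 with h2 | h2
    · norm_num at h2
    · exact hq0 h2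
  have hw₀0 : w₀ ≠ 0 := by
    intro h0
    apply hπw₀
    rw [h0, map_zero]
  have hlimA : ∀ {x : ℕ → V} {d : V}, d ≠ 0 → (∀ n, x n ≠ y) →
      Tendsto (fun n => ‖x n - y‖⁻¹ • (x n - y)) atTop (𝓝 d) →
      Tendsto (fun n => ell (x n - y)) atTop (𝓝 (ell d)) := by
    intro x d hd hne hD
    have h1 := (continuousAt_ell hV hd).tendsto.comp hD
    refine h1.congr fun n => ?_
    have h2 : x n - y ≠ 0 := sub_ne_zero.2 (hne n)
    exact ell_smul hV h2 (inv_pos.2 (norm_pos_iff.2 h2))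
  have hlimB : ∀ {x : ℕ → V}, Tendsto x atTop (𝓝 y) →
      Tendsto (fun n => ell (x n - (c - y))) atTop (𝓝 (ell w₀)) := by
    intro x hx
    have h1 : Tendsto (fun n => x n - (c - y)) atTop (𝓝 w₀) := hx.sub tendsto_const_nhds
    exact (continuousAt_ell hV hw₀0).tendsto.comp h1
  have hxp : Tendsto (fun n => zp (φp n)) atTop (𝓝 y) := hzpl.comp hφp.tendsto_atTop
  have hxm : Tendsto (fun n => zm (φm n)) atTop (𝓝 y) := hzml.comp hφm.tendsto_atTop
  have hAp := hlimA hdp0 (x := fun n => zp (φp n)) (fun n => (hoff _ (hzp1 _).2.ne').1) hDp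
  have hAm := hlimA hdm0 (x := fun n => zm (φm n)) (fun n => (hoff _ (hzm1 _).2.ne).1) hDm
  have hBp := hlimB hxp
  have hBm := hlimB hxm
  have hev : ∀ {F : ℕ → V →L[ℝ] ℝ} {G : V →L[ℝ] ℝ} (v : V), Tendsto F atTop (𝓝 G) →
      Tendsto (fun n => F n v) atTop (𝓝 (G v)) := by
    intro F G v h
    exact ((ContinuousLinearMap.apply ℝ ℝ v).continuous.tendsto G).comp h
  set Rp : ℝ := ell dp e₁ * ell w₀ e₁ + ell dp e₂ * ell w₀ e₂ with hRp
  have hRlimp : Tendsto (fun n => RR c y e₁ e₂ (zp (φp n))) atTop (𝓝 Rp) :=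
    ((hev e₁ hAp).mul (hev e₁ hBp)).add ((hev e₂ hAp).mul (hev e₂ hBp))
  have hRlimm : Tendsto (fun n => RR c y e₁ e₂ (zm (φm n))) atTop (𝓝 (-Rp)) := by
    have h1 : Tendsto (fun n => RR c y e₁ e₂ (zm (φm n))) atTop
        (𝓝 (ell dm e₁ * ell w₀ e₁ + ell dm e₂ * ell w₀ e₂)) :=
      ((hev e₁ hAm).mul (hev e₁ hBm)).add ((hev e₂ hAm).mul (hev e₂ hBm))
    have h2 : ell dm e₁ * ell w₀ e₁ + ell dm e₂ * ell w₀ e₂ = -Rp := by
      rw [hopp, ell_neg hV hdp0, hRp]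
      simp only [neg_apply]
      ring
    rwa [h2] at h1
  have hdetlim : ell dp e₁ * ell w₀ e₂ - ell dp e₂ * ell w₀ e₁ = 0 := by
    have h1 : Tendsto (fun n => ell (zp (φp n) - y) e₁ * ell (zp (φp n) - (c - y)) e₂
        - ell (zp (φp n) - y) e₂ * ell (zp (φp n) - (c - y)) e₁) atTop
        (𝓝 (ell dp e₁ * ell w₀ e₂ - ell dp e₂ * ell w₀ e₁)) :=
      ((hev e₁ hAp).mul (hev e₂ hBp)).sub ((hev e₂ hAp).mul (hev e₁ hBp))
    have h2 : ∀ n, ell (zp (φp n) - y) e₁ * ell (zp (φp n) - (c - y)) e₂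
        - ell (zp (φp n) - y) e₂ * ell (zp (φp n) - (c - y)) e₁ = 0 :=
      fun n => hdet _ (hzp1 _).1 (hzp1 _).2.ne'
    simp only [h2] at h1
    exact tendsto_nhds_unique h1 tendsto_const_nhds
  have hπdp : π dp ≠ 0 := by
    intro h0
    have : s dp = 0 := by rw [hsapp, h0, map_zero]
    linarith
  have hRp0 : Rp ≠ 0 := hlag _ _ _ _ hdetlim (hF.rho_ne hV hc hdp0 hπdp) (hF.rho_ne hV hc hw₀0 hπw₀)
  -- the contradiction
  have hstep : ∀ m, 0 ≤ Rp * RR c y e₁ e₂ (zm (φm m)) := by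
    intro m
    have hzm' := hzm1 (φm m)
    obtain ⟨h1, h2, -, -, -, -⟩ := hoff _ hzm'.2.ne
    have hmem : c - zm (φm m) ∈ Ew c := Ew_rho hzm'.1
    have hspos : 0 < s (c - zm (φm m)) := by
      rw [map_sub, hsc]
      linarith [hzm'.2]
    have hsym := RR_symm (e₁ := e₁) (e₂ := e₂) hV h1 h2
    refine ge_of_tendsto' (hRlimp.mul_const (RR c y e₁ e₂ (zm (φm m)))) fun n => ?_
    rw [← hsym]
    exact hsame _ (hzp1 _).1 _ hmem (hzp1 _).2 hspos
  have hfin : 0 ≤ Rp * (-Rp) := ge_of_tendsto' (hRlimm.const_mul Rp) hstep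
  have hpos : 0 < Rp * Rp := mul_self_pos.2 hRp0
  linarith

end Main

end Vale.Agent.Lib.P084.Dim3
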