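import Vale.Agent.Lib.P084.Dim3.Wrap

/-! A norm on a finite dimensional space which is differentiable away from the origin is `C^1` away
from the origin, and the extension theorem for such spaces. -/

set_option linter.unusedSectionVars false

namespace Vale.Agent.Lib.P084.Dim3

open scoped Topology ContDiff
open Set Filter Metric

variable {V : Type*} [NormedAddCommGroup V] [NormedSpace ℝ V]

/-- The derivative of a differentiable norm is continuous. -/
lemma continuousAt_fderiv_norm [FiniteDimensional ℝ V]
    (hV : ∀ v : V, v ≠ 0 → DifferentiableAt ℝ (fun z : V => ‖z‖) v) {v : V} (hv : v ≠ 0) :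
    ContinuousAt (fderiv ℝ (fun z : V => ‖z‖)) v := by
  have : ProperSpace (V →L[ℝ] ℝ) := FiniteDimensional.proper_real _
  have hbd : ∀ u : V, u ≠ 0 → ‖fderiv ℝ (fun z : V => ‖z‖) u‖ ≤ 1 := by
    intro u hu
    have h1 := (norm_fderiv_le_of_lipschitz ℝ (x₀ := u) (f := fun z : V => ‖z‖)
      (C := 1) (lipschitzWith_one_norm))
    simpa using h1
  -- the supporting inequality
  have hsupp : ∀ u : V, u ≠ 0 → ∀ h : V,
      ‖u‖ + fderiv ℝ (fun z : V => ‖z‖) u h ≤ ‖u + h‖ := by
    intro u hu h
    have hconv : ConvexOn ℝ univ (fun z : V => ‖z‖) := convexOn_norm convex_univ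
    have hder : HasFDerivAt (fun z : V => ‖z‖) (fderiv ℝ (fun z : V => ‖z‖) u) u :=
      (hV u hu).hasFDerivAt
    have hline : HasDerivAt (fun t : ℝ => ‖u + t • h‖)
        (fderiv ℝ (fun z : V => ‖z‖) u h) 0 := by
      have hl : HasDerivAt (fun t : ℝ => u + t • h) h 0 := by
        simpa using ((hasDerivAt_id (0 : ℝ)).smul_const h).const_add u
      have h2 : HasFDerivAt (fun z : V => ‖z‖) (fderiv ℝ (fun z : V => ‖z‖) u)
          (u + (0 : ℝ) • h) := by simpa using hder
      have := h2.comp_hasDerivAt (0 : ℝ) hl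
      simpa [Function.comp_def] using this
    have hslope := hline.tendsto_slope_zero_right
    have hle : fderiv ℝ (fun z : V => ‖z‖) u h ≤ ‖u + h‖ - ‖u‖ := by
      refine le_of_tendsto hslope ?_
      have h01 : Ioo (0 : ℝ) 1 ∈ 𝓝[>] (0 : ℝ) := Ioo_mem_nhdsGT zero_lt_one
      filter_upwards [h01] with t ht
      simp only [zero_add, zero_smul, add_zero, smul_eq_mul]
      rw [inv_mul_le_iff₀ ht.1]
      have h3 : ‖u + t • h‖ ≤ (1 - t) * ‖u‖ + t * ‖u + h‖ := by
        have e : u + t • h = (1 - t) • u + t • (u + h) := by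
          rw [smul_add, sub_smul, one_smul]
          abel
        rw [e]
        calc ‖(1 - t) • u + t • (u + h)‖ ≤ ‖(1 - t) • u‖ + ‖t • (u + h)‖ := norm_add_le _ _
          _ = (1 - t) * ‖u‖ + t * ‖u + h‖ := by
              rw [norm_smul, norm_smul, Real.norm_of_nonneg (by linarith [ht.2]),
                Real.norm_of_nonneg ht.1.le]
      nlinarith
    linarith
  have hclosed : IsCompact (closedBall (0 : V →L[ℝ] ℝ) 1) := isCompact_closedBall _ _
  have hev : ∀ᶠ u in 𝓝 v, u ≠ 0 := isOpen_ne.mem_nhds hv
  refine hclosed.tendsto_nhds_of_unique_mapClusterPt (l := 𝓝 v) ?_ ?_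
  · filter_upwards [hev] with u hu
    simpa using hbd u hu
  · intro ψ _ hψ
    -- `ψ` is a subgradient of the norm at `v`
    have hsub : ∀ h : V, ‖v‖ + ψ h ≤ ‖v + h‖ := by
      intro h
      by_contra hcon
      have hδ : 0 < ‖v‖ + ψ h - ‖v + h‖ := by
        have := not_le.1 hcon
        linarith
      set δ : ℝ := ‖v‖ + ψ h - ‖v + h‖ with hδdef
      have hs : {φ : V →L[ℝ] ℝ | |φ h - ψ h| < δ / 4} ∈ 𝓝 ψ := by
        have hc : Continuous fun φ : V →L[ℝ] ℝ => |φ h - ψ h| :=
          (((ContinuousLinearMap.apply ℝ ℝ h).continuous).sub continuous_const).abs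
        refine (isOpen_lt hc continuous_const).mem_nhds ?_
        show |ψ h - ψ h| < δ / 4
        rw [sub_self, abs_zero]
        linarith
      have hfr := (mapClusterPt_iff_frequently.1 hψ) _ hs
      have hnear : ∀ᶠ u in 𝓝 v, ‖u - v‖ < δ / 4 := by
        have := Metric.ball_mem_nhds v (show 0 < δ / 4 by linarith)
        filter_upwards [this] with u hu
        rwa [mem_ball, dist_eq_norm] at hu
      obtain ⟨u, hu1, hu2, hu3⟩ := (hfr.and_eventually (hnear.and hev)).exists
      have h1 := hsupp u hu3 h
      have h2 : ψ h - δ / 4 ≤ fderiv ℝ (fun z : V => ‖z‖) u h := by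
        have hu1' : |fderiv ℝ (fun z : V => ‖z‖) u h - ψ h| < δ / 4 := hu1
        have := abs_lt.1 hu1'
        linarith [this.1]
      have h3 : ‖v‖ ≤ ‖u‖ + ‖u - v‖ := by
        have := norm_sub_norm_le v u
        rw [norm_sub_rev] at this
        linarith
      have h4 : ‖u + h‖ ≤ ‖v + h‖ + ‖u - v‖ := by
        have e : u + h = (v + h) + (u - v) := by abel
        rw [e]
        exact norm_add_le _ _
      linarith
    -- a subgradient at a differentiability point is the derivative
    have hder := (hV v hv).hasFDerivAt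
    ext h
    have hle : ∀ h : V, ψ h ≤ fderiv ℝ (fun z : V => ‖z‖) v h := by
      intro h
      have hline : HasDerivAt (fun t : ℝ => ‖v + t • h‖)
          (fderiv ℝ (fun z : V => ‖z‖) v h) 0 := by
        have hl : HasDerivAt (fun t : ℝ => v + t • h) h 0 := by
          simpa using ((hasDerivAt_id (0 : ℝ)).smul_const h).const_add v
        have h2 : HasFDerivAt (fun z : V => ‖z‖) (fderiv ℝ (fun z : V => ‖z‖) v)
            (v + (0 : ℝ) • h) := by simpa using hder
        have := h2.comp_hasDerivAt (0 : ℝ) hl
        simpa [Function.comp_def] using this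
      have hslope := hline.tendsto_slope_zero_right
      refine ge_of_tendsto hslope ?_
      filter_upwards [self_mem_nhdsWithin] with t ht
      have ht' : (0 : ℝ) < t := ht
      simp only [zero_add, zero_smul, add_zero, smul_eq_mul]
      rw [le_inv_mul_iff₀ ht']
      have := hsub (t • h)
      rw [map_smul, smul_eq_mul] at this
      linarith
    have h1 := hle h
    have h2 := hle (-h)
    rw [map_neg, map_neg] at h2
    exact le_antisymm h1 (by linarith)

/-- A norm on a finite dimensional space which is differentiable away from the origin is `C^1` away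
from the origin. -/
lemma c1Norm_of_differentiable [FiniteDimensional ℝ V]
    (hV : ∀ v : V, v ≠ 0 → DifferentiableAt ℝ (fun z : V => ‖z‖) v) : C1Norm V := by
  intro v hv
  rw [contDiffAt_one_iff]
  refine ⟨fderiv ℝ (fun z : V => ‖z‖), {z | z ≠ 0}, isOpen_ne.mem_nhds hv, ?_, ?_⟩
  · intro u hu
    exact (continuousAt_fderiv_norm hV hu).continuousWithinAt
  · intro u hu
    exact (hV u hu).hasFDerivAt

end Vale.Agent.Lib.P084.Dim3
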