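import Vale.Agent.Lib.P084.Main
import Vale.Agent.Lib.P084.Dim3.Final

/-! The extension theorem in dimension three, for a strictly convex space with `C^1` norm. -/

set_option linter.unusedSectionVars false

namespace Vale.Agent.Lib.P084.Dim3

open scoped Topology
open Set Filter Metric Vale.Agent.Lib.P084.Dim4

/-- The core statement: target three dimensional, strictly convex with `C^1` norm. -/
theorem core {U V : Type*} [NormedAddCommGroup U] [NormedSpace ℝ U] [NormedAddCommGroup V]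
    [NormedSpace ℝ V] [FiniteDimensional ℝ U] [FiniteDimensional ℝ V] [StrictConvexSpace ℝ V]
    (hV : C1Norm V) (hdimV : Module.finrank ℝ V = 3) (hdimU : 3 ≤ Module.finrank ℝ U) {g : U → V}
    (hg : SphereIso g) : ∃ T : U ≃ₗᵢ[ℝ] V, ∀ x, ‖x‖ = 1 → T x = g x := by
  have hSC : StrictConvexSpace ℝ U := hg.strictConvex
  obtain ⟨η, hη0, hη1, hη⟩ := exists_uc' (X := U)
  exact exists_linearIsometryEquiv
    (⟨hg, hdimU, fun w hw s hs t ht => K_const_all hV hdimU hdimV hg hw s hs t ht, hη0, hη1, hη⟩ :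
      Ctx g η)

/-- Three pairwise distinct points on the circle of a three dimensional strictly convex space. -/
lemma exists_three {X : Type*} [NormedAddCommGroup X] [NormedSpace ℝ X] [FiniteDimensional ℝ X]
    [StrictConvexSpace ℝ X] (hdim : Module.finrank ℝ X = 3) {c : X} (hc : ‖c‖ = 1) :
    ∃ x₁ ∈ Ew c, ∃ x₂ ∈ Ew c, ∃ x₃ ∈ Ew c, x₁ ≠ x₂ ∧ x₁ ≠ x₃ ∧ x₂ ≠ x₃ := by
  have hc0 : c ≠ 0 := by
    rintro rfl
    simp at hc
  have hc2 : ‖c‖ < 2 := by rw [hc]; norm_num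
  obtain ⟨π, hker, hsurj⟩ := exists_proj (k := 1) hc0 (by omega)
  let π' : X →L[ℝ] E2 := π
  have hπc : π' c = 0 := (hker c).2 ⟨1, by simp⟩
  set t : E2 := EuclideanSpace.single (0 : Fin 2) (1 : ℝ) with ht
  set t' : E2 := EuclideanSpace.single (1 : Fin 2) (1 : ℝ) with ht'
  have h1 : t ≠ 0 := by
    intro h
    have := congrArg (fun v : E2 => v 0) h
    simp [ht] at this
  have h2 : t' ≠ 0 := by
    intro h
    have := congrArg (fun v : E2 => v 1) h
    simp [ht'] at this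
  obtain ⟨x₁, hx₁, κ₁, hκ₁, e₁⟩ := Ew_exists hc0 hc2 π' hπc hsurj h1
  obtain ⟨x₂, hx₂, κ₂, hκ₂, e₂⟩ := Ew_exists hc0 hc2 π' hπc hsurj (neg_ne_zero.2 h1)
  obtain ⟨x₃, hx₃, κ₃, hκ₃, e₃⟩ := Ew_exists hc0 hc2 π' hπc hsurj h2
  have v₁ : π' x₁ 0 = κ₁ := by rw [e₁]; simp [ht]
  have v₂ : π' x₂ 0 = -κ₂ := by rw [e₂]; simp [ht]
  have v₃ : π' x₃ 0 = 0 := by rw [e₃]; simp [ht']
  refine ⟨x₁, hx₁, x₂, hx₂, x₃, hx₃, ?_, ?_, ?_⟩
  · rintro rfl
    rw [v₁] at v₂
    linarith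
  · rintro rfl
    rw [v₁] at v₃
    linarith
  · rintro rfl
    rw [v₂] at v₃
    linarith

/-- A circle in a strictly convex space of dimension at most two has at most two points. -/
lemma three_le_finrank {Y : Type*} [NormedAddCommGroup Y] [NormedSpace ℝ Y] [FiniteDimensional ℝ Y]
    [StrictConvexSpace ℝ Y] {c : Y} (hc : ‖c‖ = 1) {y₁ y₂ y₃ : Y} (h1 : y₁ ∈ Ew c) (h2 : y₂ ∈ Ew c)
    (h3 : y₃ ∈ Ew c) (h12 : y₁ ≠ y₂) (h13 : y₁ ≠ y₃) (h23 : y₂ ≠ y₃) :
    3 ≤ Module.finrank ℝ Y := by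
  have hc0 : c ≠ 0 := by
    rintro rfl
    simp at hc
  have hc2 : ‖c‖ < 2 := by rw [hc]; norm_num
  by_contra hcon
  have hle : Module.finrank ℝ Y ≤ 2 := by omega
  have hpos : 0 < Module.finrank ℝ Y := by
    have : Nontrivial Y := ⟨⟨c, 0, hc0⟩⟩
    exact Module.finrank_pos
  rcases (by omega : Module.finrank ℝ Y = 1 ∨ Module.finrank ℝ Y = 2) with h | h
  · obtain ⟨a, ha⟩ := (finrank_eq_one_iff_of_nonzero' c hc0).1 h y₁
    have h4 : ‖a‖ = 1 := by
      have := h1.1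
      rw [← ha, norm_smul, hc, mul_one] at this
      exact this
    have h5 := h1.2
    rw [← ha] at h5
    have e : a • c - c = (a - 1) • c := by rw [sub_smul, one_smul]
    rw [e, norm_smul, hc, mul_one] at h5
    rw [Real.norm_eq_abs] at h4 h5
    rcases abs_cases a with ⟨h6, h7⟩ | ⟨h6, h7⟩
    · have h8 : a = 1 := by linarith
      rw [h8] at h5
      norm_num at h5
    · have h8 : a = -1 := by linarith
      rw [h8] at h5
      norm_num at h5
  · obtain ⟨π, hker, -⟩ := exists_proj (k := 0) hc0 (by omega)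
    have hn : ∀ p ∈ Ew c, π p 0 ≠ 0 := by
      intro p hp h0
      apply pi_ne_zero hc2 π hker hp
      ext i
      fin_cases i
      simpa using h0
    have key : ∀ p ∈ Ew c, ∀ p' ∈ Ew c, 0 < π p 0 * π p' 0 → p' = p := by
      intro p hp p' hp' hprod
      have hp0 := hn p hp
      refine Ew_inj hc0 hc2 π hker hp hp' (κ := π p' 0 / π p 0) ?_ ?_
      · have : π p' 0 / π p 0 = (π p 0 * π p' 0) / (π p 0) ^ 2 := by
          field_simp
        rw [this]
        positivity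
      · ext i
        fin_cases i
        simp
        field_simp
    have s1 := hn _ h1
    have s2 := hn _ h2
    have s3 := hn _ h3
    rcases lt_or_gt_of_ne s1 with a1 | a1 <;> rcases lt_or_gt_of_ne s2 with a2 | a2 <;>
      rcases lt_or_gt_of_ne s3 with a3 | a3
    · exact h12 (key _ h1 _ h2 (mul_pos_of_neg_of_neg a1 a2)).symm
    · exact h12 (key _ h1 _ h2 (mul_pos_of_neg_of_neg a1 a2)).symm
    · exact h13 (key _ h1 _ h3 (mul_pos_of_neg_of_neg a1 a3)).symm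
    · exact h23 (key _ h2 _ h3 (mul_pos a2 a3)).symm
    · exact h23 (key _ h2 _ h3 (mul_pos_of_neg_of_neg a2 a3)).symm
    · exact h13 (key _ h1 _ h3 (mul_pos a1 a3)).symm
    · exact h12 (key _ h1 _ h2 (mul_pos a1 a2)).symm
    · exact h12 (key _ h1 _ h2 (mul_pos a1 a2)).symm

/-- Every surjective isometry from the unit sphere of a three dimensional strictly convex space with
`C^1` norm onto the unit sphere of any real normed space extends to a linear isometry. -/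
theorem sphere_isometry_dim3 {X Y : Type*} [NormedAddCommGroup X] [NormedSpace ℝ X]
    [FiniteDimensional ℝ X] [StrictConvexSpace ℝ X] [NormedAddCommGroup Y] [NormedSpace ℝ Y]
    (hdim : Module.finrank ℝ X = 3) (hX : C1Norm X)
    (f : sphere (0 : X) 1 → sphere (0 : Y) 1) (hf : Isometry f) (hs : Function.Surjective f) :
    ∃ T : X ≃ₗᵢ[ℝ] Y, ∀ x : sphere (0 : X) 1, T x = f x := by
  classical
  have hmemX : ∀ a : X, ‖a‖ = 1 → a ∈ sphere (0 : X) 1 := fun a ha => by simpa using ha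
  have hmemY : ∀ y : Y, ‖y‖ = 1 → y ∈ sphere (0 : Y) 1 := fun y hy => by simpa using hy
  have hnormX : ∀ a : sphere (0 : X) 1, ‖(a : X)‖ = 1 := fun a => by simpa using a.2
  have hnormY : ∀ y : sphere (0 : Y) 1, ‖(y : Y)‖ = 1 := fun y => by simpa using y.2
  have hfdist : ∀ a b : sphere (0 : X) 1, ‖(f a : Y) - f b‖ = ‖(a : X) - b‖ := by
    intro a b
    have := hf.dist_eq a b
    simpa [Subtype.dist_eq, dist_eq_norm] using this
  obtain ⟨inv, hinv⟩ : ∃ inv : sphere (0 : Y) 1 → sphere (0 : X) 1, ∀ y, f (inv y) = y :=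
    hs.hasRightInverse
  set g : Y → X := fun a => if h : ‖a‖ = 1 then (inv ⟨a, hmemY a h⟩ : X) else 0 with hg
  have hgv : ∀ a (h : ‖a‖ = 1), g a = inv ⟨a, hmemY a h⟩ := fun a h => by simp [hg, h]
  have hinvl : ∀ a : sphere (0 : X) 1, inv (f a) = a := fun a => hf.injective (hinv _)
  have hG : SphereIso g := by
    refine ⟨fun a ha => ?_, fun a b ha hb => ?_, fun y hy => ?_⟩
    · rw [hgv a ha]; exact hnormX _
    · rw [hgv a ha, hgv b hb, ← hfdist, hinv, hinv]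
    · refine ⟨f ⟨y, hmemX y hy⟩, hnormY _, ?_⟩
      rw [hgv _ (hnormY _)]
      have : (⟨(f ⟨y, hmemX y hy⟩ : Y), hmemY _ (hnormY _)⟩ : sphere (0 : Y) 1)
          = f ⟨y, hmemX y hy⟩ := Subtype.ext rfl
      rw [this, hinvl]
  have hntX : Nontrivial X := by
    apply Module.nontrivial_of_finrank_pos (R := ℝ)
    omega
  obtain ⟨a₀, ha₀⟩ := exists_ne (0 : X)
  have ha₀1 : ‖‖a₀‖⁻¹ • a₀‖ = 1 := by simpa using norm_smul_inv_norm (𝕜 := ℝ) ha₀
  set x₀ : sphere (0 : X) 1 := ⟨‖a₀‖⁻¹ • a₀, hmemX _ ha₀1⟩ with hx₀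
  have hcY : IsCompact (sphere (0 : Y) 1) := by
    have : ProperSpace X := FiniteDimensional.proper_real X
    have hc : CompactSpace (sphere (0 : X) 1) :=
      isCompact_iff_compactSpace.1 (isCompact_sphere _ _)
    have himg : sphere (0 : Y) 1 = Set.range fun a : sphere (0 : X) 1 => (f a : Y) := by
      ext y
      constructor
      · intro hy
        obtain ⟨a, ha⟩ := hs ⟨y, hy⟩
        exact ⟨a, by show (f a : Y) = y; rw [ha]⟩
      · rintro ⟨a, rfl⟩
        exact (f a).2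
    rw [himg]
    exact isCompact_range (continuous_subtype_val.comp hf.continuous)
  have hFD : FiniteDimensional ℝ Y := finiteDimensional_of_sphere hcY (hnormY (f x₀))
  have hSC : StrictConvexSpace ℝ Y := hG.strictConvex
  -- the dimension of `Y`
  have hdimY : 3 ≤ Module.finrank ℝ Y := by
    obtain ⟨x₁, hx₁, x₂, hx₂, x₃, hx₃, h12, h13, h23⟩ := exists_three hdim (hnormX x₀)
    have hmapE : ∀ p (hp : p ∈ Ew (x₀ : X)), (f ⟨p, hmemX p hp.1⟩ : Y) ∈ Ew (f x₀ : Y) :=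
      fun p hp => ⟨hnormY _, by rw [hfdist]; exact hp.2⟩
    have hinj : ∀ p q (hp : ‖p‖ = 1) (hq : ‖q‖ = 1), p ≠ q →
        (f ⟨p, hmemX p hp⟩ : Y) ≠ (f ⟨q, hmemX q hq⟩ : Y) := by
      intro p q hp hq hne h
      have h1 := hfdist ⟨p, hmemX p hp⟩ ⟨q, hmemX q hq⟩
      rw [h, sub_self, norm_zero] at h1
      exact hne (sub_eq_zero.1 (norm_eq_zero.1 h1.symm))
    exact three_le_finrank (hnormY (f x₀)) (hmapE _ hx₁) (hmapE _ hx₂) (hmapE _ hx₃)
      (hinj _ _ hx₁.1 hx₂.1 h12) (hinj _ _ hx₁.1 hx₃.1 h13) (hinj _ _ hx₂.1 hx₃.1 h23)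
  obtain ⟨T', hT'⟩ := core hX hdim hdimY hG
  refine ⟨T'.symm, fun x => ?_⟩
  rw [LinearIsometryEquiv.symm_apply_eq, hT' _ (hnormY _), hgv _ (hnormY _)]
  have : (⟨(f x : Y), hmemY _ (hnormY _)⟩ : sphere (0 : Y) 1) = f x := Subtype.ext rfl
  rw [this, hinvl]

end Vale.Agent.Lib.P084.Dim3
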